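import Vale.Agent.P335.OpAlg
import Vale.Agent.P335.Spectral

/-!
# P328: the abstract recursion (Caputo scheme)

`k u v : X → K` is a family of keys indexed by ordered pairs, `RR k u v f = f - avg (k u v) f`,
`DD k f = sum over ordered pairs u != v of RR k u v f`.
All proofs are copies of the proofs in `Vale/Agent/P335/Gap.lean` (same names there:
gap_ip_DD_left, gap_ip_DD_right, exists_DDL, ip_DD_symm, ip_DD_eq, ip_DD_nonneg, sum_adj_nonneg,
gap_sum_pair_split, ip_DD_DD_eq, DD_sq_ge) and `GapFinal.lean` (DD_gap) with `R u v` replaced by `RR k u v`.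
-/

namespace Vale.Agent.P328

open Finset

open Vale.Agent.P335 (avg cls ip avgL)

open scoped Classical

noncomputable section

variable {α : Type} [Fintype α] [DecidableEq α] {X : Type} [Fintype X] {K : Type} (k : α → α → X → K)

/-- `1 - Q_{uv}` -/
def RR (u v : α) (f : X → ℝ) : X → ℝ := f - avg (k u v) f

/-- sum of `1 - Q_{uv}` over the ordered pairs `u != v` -/
def DD (f : X → ℝ) : X → ℝ := fun x => ∑ u : α, ∑ v : α, if u ≠ v then RR k u v f x else 0

/-- four distinct indices -/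
def Dist4 (u v w x : α) : Prop := u ≠ v ∧ u ≠ w ∧ u ≠ x ∧ v ≠ w ∧ v ≠ x ∧ w ≠ x

/-- (A1) `ip_avg_left`. -/
theorem ip_RR_symm (u v : α) (f g : X → ℝ) : ip (RR k u v f) g = ip f (RR k u v g) := by
  unfold RR
  rw [Vale.Agent.P335.ip_sub_left, Vale.Agent.P335.ip_sub_right, Vale.Agent.P335.ip_avg_left]

/-- (A1) `ip_sub_avg`. -/
theorem ip_RR_self (u v : α) (f : X → ℝ) : ip (RR k u v f) (RR k u v f) = ip f (RR k u v f) := by
  exact (Vale.Agent.P335.ip_sub_avg _ f).symm

/-- (A1) copy of gap_ip_DD_left. -/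
theorem ip_DD_left (f g : X → ℝ) :
    ip (DD k f) g = ∑ u : α, ∑ v : α, if u ≠ v then ip (RR k u v f) g else 0 := by
  unfold ip DD
  simp_rw [Finset.sum_mul]
  rw [Finset.sum_comm]
  refine Finset.sum_congr rfl fun u _ => ?_
  rw [Finset.sum_comm]
  refine Finset.sum_congr rfl fun v _ => ?_
  by_cases h : u ≠ v
  · simp [h]
  · simp [h]

/-- (A1) copy of gap_ip_DD_right. -/
theorem ip_DD_right (f g : X → ℝ) :
    ip g (DD k f) = ∑ u : α, ∑ v : α, if u ≠ v then ip g (RR k u v f) else 0 := by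
  rw [Vale.Agent.P335.ip_comm, ip_DD_left]
  refine Finset.sum_congr rfl fun u _ => Finset.sum_congr rfl fun v _ => ?_
  rw [Vale.Agent.P335.ip_comm]

/-- (A2) copy of exists_DDL. -/
theorem exists_DDL : ∃ D : (X → ℝ) →ₗ[ℝ] (X → ℝ), ∀ f, D f = DD k f := by
  refine ⟨∑ u : α, ∑ v : α,
    if u ≠ v then (LinearMap.id - avgL (k u v)) else 0, fun f => ?_⟩
  funext G
  simp only [LinearMap.sum_apply, Finset.sum_apply, DD]
  refine Finset.sum_congr rfl fun u _ => Finset.sum_congr rfl fun v _ => ?_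
  by_cases h : u ≠ v
  · simp [h, RR]
  · simp [h]

/-- (A2) copy of ip_DD_symm. -/
theorem ip_DD_symm (f g : X → ℝ) : ip (DD k f) g = ip f (DD k g) := by
  rw [ip_DD_left, ip_DD_right]
  refine Finset.sum_congr rfl fun u _ => Finset.sum_congr rfl fun v _ => ?_
  rw [ip_RR_symm]

/-- (A2) copy of ip_DD_nonneg. -/
theorem ip_DD_nonneg (f : X → ℝ) : 0 ≤ ip f (DD k f) := by
  rw [ip_DD_right]
  refine Finset.sum_nonneg fun u _ => Finset.sum_nonneg fun v _ => ?_
  split_ifs
  · rw [← ip_RR_self]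
    exact Vale.Agent.P335.ip_self_nonneg _
  · exact le_rfl

/-- (A2) if `DD k f = 0` then `0 = ip f (DD k f) = sum of ip (RR f) (RR f)`, all terms nonnegative, so every
`RR k u v f` has `ip` with itself zero, hence vanishes pointwise (`Finset.sum_eq_zero_iff_of_nonneg`). -/
theorem avg_eq_of_DD_eq_zero (f : X → ℝ) (h : DD k f = 0) (u v : α) (huv : u ≠ v) :
    avg (k u v) f = f := by
  have h0 : ip f (DD k f) = 0 := by
    rw [h]; unfold ip; simp
  rw [ip_DD_right] at h0
  have hnn : ∀ u v : α, 0 ≤ (if u ≠ v then ip f (RR k u v f) else 0) := by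
    intro u v
    split_ifs
    · rw [← ip_RR_self]
      exact Vale.Agent.P335.ip_self_nonneg _
    · exact le_rfl
  have h1 := (Finset.sum_eq_zero_iff_of_nonneg
    (fun u _ => Finset.sum_nonneg fun v _ => hnn u v)).1 h0 u (Finset.mem_univ u)
  have h2 := (Finset.sum_eq_zero_iff_of_nonneg (fun v _ => hnn u v)).1 h1 v (Finset.mem_univ v)
  rw [if_pos huv, ← ip_RR_self] at h2
  unfold ip at h2
  have h3 := (Finset.sum_eq_zero_iff_of_nonneg (fun x _ => mul_self_nonneg _)).1 h2
  funext x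
  have h4 := mul_self_eq_zero.1 (h3 x (Finset.mem_univ x))
  have h5 : f x - avg (k u v) f x = 0 := h4
  linarith

theorem RR_comm (hcomm : ∀ u v, k u v = k v u) (u v : α) (f : X → ℝ) : RR k u v f = RR k v u f := by
  unfold RR
  rw [hcomm]

theorem gap_sum3_rot {β : Type*} [Fintype β] (F : β → β → β → ℝ) :
    ∑ a, ∑ b, ∑ c, F a b c = ∑ c, ∑ a, ∑ b, F a b c := by
  calc ∑ a, ∑ b, ∑ c, F a b c = ∑ a, ∑ c, ∑ b, F a b c :=
        Finset.sum_congr rfl fun a _ => Finset.sum_comm
    _ = ∑ c, ∑ a, ∑ b, F a b c := Finset.sum_comm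

/-- (A3) copy of sum_adj_nonneg (uses `hcomm` in place of gap_R_comm and `hadj` in place of adj_ineq; copy the small generic
lemma gap_sum3_rot into this file, do NOT import P335/Gap.lean). -/
theorem sum_adj_nonneg (hcomm : ∀ u v, k u v = k v u)
    (hadj : ∀ a b c, a ≠ b → a ≠ c → b ≠ c → ∀ f : X → ℝ,
      0 ≤ ip (RR k a b f) (RR k a c f) + ip (RR k a b f) (RR k b c f) + ip (RR k a c f) (RR k b c f))
    (f : X → ℝ) :
    0 ≤ ∑ a : α, ∑ b : α, ∑ c : α,
      if a ≠ b ∧ a ≠ c ∧ b ≠ c then ip (RR k a b f) (RR k a c f) else 0 := by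
  set S := ∑ a : α, ∑ b : α, ∑ c : α,
      if a ≠ b ∧ a ≠ c ∧ b ≠ c then ip (RR k a b f) (RR k a c f) else 0 with hS
  have h2 : (∑ a : α, ∑ b : α, ∑ c : α,
      if a ≠ b ∧ a ≠ c ∧ b ≠ c then ip (RR k a b f) (RR k b c f) else 0) = S := by
    rw [hS, Finset.sum_comm]
    refine Finset.sum_congr rfl fun b _ => Finset.sum_congr rfl fun a _ =>
      Finset.sum_congr rfl fun c _ => ?_
    rw [RR_comm k hcomm a b]
    by_cases h : a ≠ b ∧ a ≠ c ∧ b ≠ c
    · rw [if_pos h, if_pos ⟨h.1.symm, h.2.2, h.2.1⟩]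
    · rw [if_neg h, if_neg (fun h' => h ⟨h'.1.symm, h'.2.2, h'.2.1⟩)]
  have h3 : (∑ a : α, ∑ b : α, ∑ c : α,
      if a ≠ b ∧ a ≠ c ∧ b ≠ c then ip (RR k a c f) (RR k b c f) else 0) = S := by
    rw [hS, gap_sum3_rot]
    refine Finset.sum_congr rfl fun c _ => Finset.sum_congr rfl fun a _ =>
      Finset.sum_congr rfl fun b _ => ?_
    rw [RR_comm k hcomm a c, RR_comm k hcomm b c]
    by_cases h : a ≠ b ∧ a ≠ c ∧ b ≠ c
    · rw [if_pos h, if_pos ⟨h.2.1.symm, h.2.2.symm, h.1⟩]
    · rw [if_neg h, if_neg (fun h' => h ⟨h'.2.2, h'.1.symm, h'.2.1.symm⟩)]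
  have h : 0 ≤ ∑ a : α, ∑ b : α, ∑ c : α,
      if a ≠ b ∧ a ≠ c ∧ b ≠ c then
        (ip (RR k a b f) (RR k a c f) + ip (RR k a b f) (RR k b c f) + ip (RR k a c f) (RR k b c f)) else 0 := by
    refine Finset.sum_nonneg fun a _ => Finset.sum_nonneg fun b _ => Finset.sum_nonneg fun c _ => ?_
    split_ifs with h
    · exact hadj a b c h.1 h.2.1 h.2.2 f
    · exact le_rfl
  have h4 : (∑ a : α, ∑ b : α, ∑ c : α,
      if a ≠ b ∧ a ≠ c ∧ b ≠ c then
        (ip (RR k a b f) (RR k a c f) + ip (RR k a b f) (RR k b c f) + ip (RR k a c f) (RR k b c f)) else 0)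
      = S + S + S := by
    have e : S + S + S = S + (∑ a : α, ∑ b : α, ∑ c : α,
      if a ≠ b ∧ a ≠ c ∧ b ≠ c then ip (RR k a b f) (RR k b c f) else 0) + (∑ a : α, ∑ b : α,
      ∑ c : α, if a ≠ b ∧ a ≠ c ∧ b ≠ c then ip (RR k a c f) (RR k b c f) else 0) := by
      rw [h2, h3]
    rw [e, hS]
    simp only [← Finset.sum_add_distrib]
    refine Finset.sum_congr rfl fun a _ => Finset.sum_congr rfl fun b _ =>
      Finset.sum_congr rfl fun c _ => ?_
    split_ifs <;> simp
  linarith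

/-- splitting of a sum over ordered pairs `w != x` relative to a fixed ordered pair `u != v` -/
theorem gap_sum_pair_split {β : Type*} [Fintype β] [DecidableEq β] (u v : β) (huv : u ≠ v)
    (A : β → β → ℝ) :
    (∑ w, ∑ x, if w ≠ x then A w x else 0) =
      A u v + A v u + (∑ x, if x ≠ u ∧ x ≠ v then A u x else 0)
        + (∑ w, if w ≠ u ∧ w ≠ v then A w u else 0)
        + (∑ x, if x ≠ u ∧ x ≠ v then A v x else 0)
        + (∑ w, if w ≠ u ∧ w ≠ v then A w v else 0)
        + ∑ w, ∑ x, if (w ≠ u ∧ w ≠ v ∧ x ≠ u ∧ x ≠ v ∧ w ≠ x) then A w x else 0 := by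
  have key : ∀ w x : β, (if w ≠ x then A w x else 0) =
      (if w = u then (if x = v then A u v else 0) else 0)
      + (if w = v then (if x = u then A v u else 0) else 0)
      + (if w = u then (if x ≠ u ∧ x ≠ v then A u x else 0) else 0)
      + (if x = u then (if w ≠ u ∧ w ≠ v then A w u else 0) else 0)
      + (if w = v then (if x ≠ u ∧ x ≠ v then A v x else 0) else 0)
      + (if x = v then (if w ≠ u ∧ w ≠ v then A w v else 0) else 0)
      + (if (w ≠ u ∧ w ≠ v ∧ x ≠ u ∧ x ≠ v ∧ w ≠ x) then A w x else 0) := by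
    intro w x
    have hvu : v ≠ u := huv.symm
    by_cases h1 : w = u
    · subst h1
      by_cases h2 : x = w
      · subst h2
        simp [huv]
      · by_cases h3 : x = v
        · subst h3
          simp [huv, hvu]
        · have h2' : w ≠ x := fun h => h2 h.symm
          simp [h2, h3, huv, h2']
    · by_cases h2 : w = v
      · subst h2
        by_cases h3 : x = u
        · subst h3
          simp [huv, hvu]
        · by_cases h4 : x = w
          · subst h4
            simp [hvu]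
          · have h4' : w ≠ x := fun h => h4 h.symm
            simp [h3, h4, hvu, h4']
      · by_cases h3 : x = u
        · subst h3
          simp [h1, h2, huv]
        · by_cases h4 : x = v
          · subst h4
            simp [h1, h2, hvu]
          · simp [h1, h2, h3, h4]
  simp only [key, Finset.sum_add_distrib, Finset.sum_ite_eq', Finset.mem_univ, if_true]
  have c3 : ∀ g : β → ℝ, ∀ a : β,
      (∑ w : β, ∑ x : β, if w = a then g x else 0) = ∑ x, g x := by
    intro g a
    rw [Finset.sum_comm]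
    refine Finset.sum_congr rfl fun w _ => ?_
    simp
  rw [c3 (fun x => if x = v then A u v else 0) u, c3 (fun x => if x = u then A v u else 0) v,
    c3 (fun x => if x ≠ u ∧ x ≠ v then A u x else 0) u,
    c3 (fun x => if x ≠ u ∧ x ≠ v then A v x else 0) v]
  simp

/-- (A4) copy of ip_DD_DD_eq.  Copy the generic lemma gap_sum_pair_split of P335/Gap.lean into this file, directly above
(do NOT import P335/Gap.lean: it would pull in all of P335). -/
theorem ip_DD_DD_eq (hcomm : ∀ u v, k u v = k v u) (f : X → ℝ) :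
    ip (DD k f) (DD k f) = 2 * ip f (DD k f) +
      4 * (∑ a : α, ∑ b : α, ∑ c : α,
        if a ≠ b ∧ a ≠ c ∧ b ≠ c then ip (RR k a b f) (RR k a c f) else 0) +
      ∑ u : α, ∑ v : α, ∑ w : α, ∑ x : α,
        if Dist4 u v w x then ip (RR k u v f) (RR k w x f) else 0 := by
  set S := ∑ a : α, ∑ b : α, ∑ c : α,
      if a ≠ b ∧ a ≠ c ∧ b ≠ c then ip (RR k a b f) (RR k a c f) else 0 with hS
  -- the pointwise (in u, v) expansion
  have hexp : ∀ u v : α, (if u ≠ v then ip (RR k u v f) (DD k f) else 0) =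
      (if u ≠ v then ip f (RR k u v f) else 0) + (if u ≠ v then ip f (RR k u v f) else 0)
      + (∑ c : α, if u ≠ v ∧ u ≠ c ∧ v ≠ c then ip (RR k u v f) (RR k u c f) else 0)
      + (∑ c : α, if u ≠ v ∧ u ≠ c ∧ v ≠ c then ip (RR k u v f) (RR k u c f) else 0)
      + (∑ c : α, if v ≠ u ∧ v ≠ c ∧ u ≠ c then ip (RR k v u f) (RR k v c f) else 0)
      + (∑ c : α, if v ≠ u ∧ v ≠ c ∧ u ≠ c then ip (RR k v u f) (RR k v c f) else 0)
      + ∑ w : α, ∑ x : α, if Dist4 u v w x then ip (RR k u v f) (RR k w x f) else 0 := by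
    intro u v
    by_cases huv : u ≠ v
    · rw [if_pos huv, if_pos huv, ip_DD_right,
        gap_sum_pair_split u v huv (fun w x => ip (RR k u v f) (RR k w x f))]
      have hvu : v ≠ u := huv.symm
      congr 1
      · congr 1
        · congr 1
          · congr 1
            · congr 1
              · congr 1
                · exact ip_RR_self k u v f
                · rw [RR_comm k hcomm v u]; exact ip_RR_self k u v f
              · refine Finset.sum_congr rfl fun c _ => ?_
                by_cases h : c ≠ u ∧ c ≠ v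
                · rw [if_pos h, if_pos ⟨huv, h.1.symm, h.2.symm⟩]
                · rw [if_neg h, if_neg (fun h' => h ⟨h'.2.1.symm, h'.2.2.symm⟩)]
            · refine Finset.sum_congr rfl fun c _ => ?_
              rw [RR_comm k hcomm c u]
              by_cases h : c ≠ u ∧ c ≠ v
              · rw [if_pos h, if_pos ⟨huv, h.1.symm, h.2.symm⟩]
              · rw [if_neg h, if_neg (fun h' => h ⟨h'.2.1.symm, h'.2.2.symm⟩)]
          · refine Finset.sum_congr rfl fun c _ => ?_
            rw [RR_comm k hcomm u v]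
            by_cases h : c ≠ u ∧ c ≠ v
            · rw [if_pos h, if_pos ⟨hvu, h.2.symm, h.1.symm⟩]
            · rw [if_neg h, if_neg (fun h' => h ⟨h'.2.2.symm, h'.2.1.symm⟩)]
        · refine Finset.sum_congr rfl fun c _ => ?_
          rw [RR_comm k hcomm u v, RR_comm k hcomm c v]
          by_cases h : c ≠ u ∧ c ≠ v
          · rw [if_pos h, if_pos ⟨hvu, h.2.symm, h.1.symm⟩]
          · rw [if_neg h, if_neg (fun h' => h ⟨h'.2.2.symm, h'.2.1.symm⟩)]
      · refine Finset.sum_congr rfl fun w _ => Finset.sum_congr rfl fun x _ => ?_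
        by_cases h : w ≠ u ∧ w ≠ v ∧ x ≠ u ∧ x ≠ v ∧ w ≠ x
        · rw [if_pos h, if_pos ⟨huv, h.1.symm, h.2.2.1.symm, h.2.1.symm, h.2.2.2.1.symm, h.2.2.2.2⟩]
        · rw [if_neg h, if_neg (fun h' => h ⟨h'.2.1.symm, h'.2.2.2.1.symm, h'.2.2.1.symm,
            h'.2.2.2.2.1.symm, h'.2.2.2.2.2⟩)]
    · have hD : ∀ w x, ¬ Dist4 u v w x := fun w x h => huv h.1
      have h1 : ∀ c, ¬ (u ≠ v ∧ u ≠ c ∧ v ≠ c) := fun c h => huv h.1
      have h2 : ∀ c, ¬ (v ≠ u ∧ v ≠ c ∧ u ≠ c) := fun c h => huv h.1.symm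
      simp only [if_neg huv, if_neg (hD _ _), if_neg (h1 _), if_neg (h2 _), Finset.sum_const_zero,
        add_zero]
  rw [ip_DD_left]
  simp only [hexp, Finset.sum_add_distrib]
  rw [← ip_DD_right]
  have hswap : (∑ u : α, ∑ v : α, ∑ c : α,
      if v ≠ u ∧ v ≠ c ∧ u ≠ c then ip (RR k v u f) (RR k v c f) else 0) = S := by
    rw [hS, Finset.sum_comm]
  rw [hswap, ← hS]
  ring

/-- the square inequality -/
theorem DD_sq_ge (hcomm : ∀ u v, k u v = k v u)
    (hadj : ∀ a b c, a ≠ b → a ≠ c → b ≠ c → ∀ f : X → ℝ,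
      0 ≤ ip (RR k a b f) (RR k a c f) + ip (RR k a b f) (RR k b c f) + ip (RR k a c f) (RR k b c f))
    (hdisj : ∀ u v w x, Dist4 u v w x → ∀ f : X → ℝ, 0 ≤ ip (RR k u v f) (RR k w x f))
    (f : X → ℝ) : 2 * ip f (DD k f) ≤ ip (DD k f) (DD k f) := by
  have h1 := ip_DD_DD_eq k hcomm f
  have h2 := sum_adj_nonneg k hcomm hadj f
  have h3 : 0 ≤ ∑ u : α, ∑ v : α, ∑ w : α, ∑ x : α,
      if Dist4 u v w x then ip (RR k u v f) (RR k w x f) else 0 := by
    refine Finset.sum_nonneg fun u _ => Finset.sum_nonneg fun v _ => Finset.sum_nonneg fun w _ =>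
      Finset.sum_nonneg fun x _ => ?_
    split_ifs with h
    · exact hdisj u v w x h f
    · exact le_rfl
  linarith

/-- the gap: `DD >= 2` on functions of mean zero -/
theorem DD_gap (hcomm : ∀ u v, k u v = k v u)
    (hadj : ∀ a b c, a ≠ b → a ≠ c → b ≠ c → ∀ f : X → ℝ,
      0 ≤ ip (RR k a b f) (RR k a c f) + ip (RR k a b f) (RR k b c f) + ip (RR k a c f) (RR k b c f))
    (hdisj : ∀ u v w x, Dist4 u v w x → ∀ f : X → ℝ, 0 ≤ ip (RR k u v f) (RR k w x f))
    (hker : ∀ f : X → ℝ, (∀ u v, u ≠ v → avg (k u v) f = f) → ∀ x y, f x = f y)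
    (f : X → ℝ) (hf : ∑ x, f x = 0) : 2 * ip f f ≤ ip f (DD k f) := by
  obtain ⟨D, hD⟩ := exists_DDL k
  have h := Vale.Agent.P335.gap_of_sq D (fun f g => by rw [hD, hD]; exact ip_DD_symm k f g)
    (fun f => by rw [hD]; exact ip_DD_nonneg k f) 2 (by norm_num)
    (fun f => by rw [hD]; exact DD_sq_ge k hcomm hadj hdisj f)
    (fun f h0 x y => hker f (fun u v huv => avg_eq_of_DD_eq_zero k f (by rw [← hD]; exact h0) u v huv)
      x y) f hf
  rw [hD] at h
  exact h

/-- (A5) variance form.  `g = f - avg (fun _ => ()) f` has mean zero (`sum_avg`); `avg (k u v)` fixes constants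
(`avg_of_invariant`), so `RR k u v g = RR k u v f` and `DD k g = DD k f`; `ip g (DD k g) = ip f (DD k f)` because
`ip (const) (DD k f) = ip (DD k const) f = 0` (`ip_DD_symm`); `ip g g = ip f g` (`ip_sub_avg`). -/
theorem DD_gap_var (hcomm : ∀ u v, k u v = k v u)
    (hadj : ∀ a b c, a ≠ b → a ≠ c → b ≠ c → ∀ f : X → ℝ,
      0 ≤ ip (RR k a b f) (RR k a c f) + ip (RR k a b f) (RR k b c f) + ip (RR k a c f) (RR k b c f))
    (hdisj : ∀ u v w x, Dist4 u v w x → ∀ f : X → ℝ, 0 ≤ ip (RR k u v f) (RR k w x f))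
    (hker : ∀ f : X → ℝ, (∀ u v, u ≠ v → avg (k u v) f = f) → ∀ x y, f x = f y)
    (f : X → ℝ) : 2 * ip f (f - avg (fun _ : X => ()) f) ≤ ip f (DD k f) := by
  set c : X → ℝ := avg (fun _ : X => ()) f with hc
  have hconst : ∀ x y, c x = c y := fun x y =>
    Vale.Agent.P335.avg_congr_key (k := fun _ : X => ()) f rfl
  have hRc : ∀ u v, RR k u v c = 0 := by
    intro u v
    unfold RR
    rw [Vale.Agent.P335.avg_of_invariant (fun x y _ => hconst x y), sub_self]
  have hDc : DD k c = 0 := by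
    funext x
    unfold DD
    simp [hRc]
  have hRg : ∀ u v, RR k u v (f - c) = RR k u v f := by
    intro u v
    have h := hRc u v
    unfold RR at h ⊢
    rw [Vale.Agent.P335.avg_sub]
    have h' : c = avg (k u v) c := sub_eq_zero.1 h
    rw [← h']
    abel
  have hDg : DD k (f - c) = DD k f := by
    funext x
    unfold DD
    simp only [hRg]
  have hmean : ∑ x, (f - c) x = 0 := by
    simp only [Pi.sub_apply, Finset.sum_sub_distrib]
    rw [hc, Vale.Agent.P335.sum_avg, sub_self]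
  have h := DD_gap k hcomm hadj hdisj hker (f - c) hmean
  rw [hDg, Vale.Agent.P335.ip_sub_left f c (DD k f), ← ip_DD_symm k c f, hDc] at h
  have h0 : ip (0 : X → ℝ) f = 0 := by unfold ip; simp
  rw [h0, sub_zero, ← Vale.Agent.P335.ip_sub_avg] at h
  exact h

/-- (A6) `1 - avg` is a projection; two commuting ones have a nonnegative product
(`Vale.Agent.P335.ip_proj_comm_nonneg` with `p = LinearMap.id - avgL k1`, `q = LinearMap.id - avgL k2`). -/
theorem ip_sub_avg_comm_nonneg {K1 K2 : Type} (k1 : X → K1) (k2 : X → K2)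
    (hc : ∀ f : X → ℝ, avg k1 (avg k2 f) = avg k2 (avg k1 f)) (f : X → ℝ) :
    0 ≤ ip (f - avg k1 f) (f - avg k2 f) := by
  have hp : ∀ {K' : Type} (k' : X → K'),
      Vale.Agent.P335.IsProj (LinearMap.id - avgL k' : (X → ℝ) →ₗ[ℝ] (X → ℝ)) := by
    intro K' k'
    constructor
    · intro g h
      simp only [LinearMap.sub_apply, LinearMap.id_apply, Vale.Agent.P335.avgL_apply,
        Vale.Agent.P335.ip_sub_left, Vale.Agent.P335.ip_sub_right, Vale.Agent.P335.ip_avg_left]
    · intro g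
      simp only [LinearMap.sub_apply, LinearMap.id_apply, Vale.Agent.P335.avgL_apply,
        Vale.Agent.P335.avg_sub, Vale.Agent.P335.avg_idem]
      abel
  have h := Vale.Agent.P335.ip_proj_comm_nonneg (LinearMap.id - avgL k1) (LinearMap.id - avgL k2)
    (hp k1) (hp k2) f (by
      simp only [LinearMap.sub_apply, LinearMap.id_apply, Vale.Agent.P335.avgL_apply,
        Vale.Agent.P335.avg_sub, hc]
      abel)
  simpa using h

end

end Vale.Agent.P328
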