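import Vale.Agent.P328.Col
import Vale.Agent.P335.Mixing

/-! # P328: the lazy 2 x 2 heat-bath chain -/

namespace Vale.Agent.P328

open Finset

open Vale.Agent.P335 (avg cls ip avgL)

open scoped Classical

noncomputable section

variable {m n : ℕ} (r : Fin m → ℕ) (c : Fin n → ℕ)

/-- the normalisation `m (m-1) n (n-1)` -/
def MM (m n : ℕ) : ℝ := (m : ℝ) * ((m : ℝ) - 1) * (n : ℝ) * ((n : ℝ) - 1)

/-- (K1) -/
theorem MM_pos (hm : 2 ≤ m) (hn : 2 ≤ n) : 0 < MM m n := by
  have h1 : (2 : ℝ) ≤ m := by exact_mod_cast hm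
  have h2 : (2 : ℝ) ≤ n := by exact_mod_cast hn
  unfold MM
  have a1 : (0 : ℝ) < m := by linarith
  have a2 : (0 : ℝ) < (m : ℝ) - 1 := by linarith
  have a3 : (0 : ℝ) < n := by linarith
  have a4 : (0 : ℝ) < (n : ℝ) - 1 := by linarith
  positivity

private theorem sum_ne_const (p : ℕ) (x : ℝ) :
    ∑ u : Fin p, ∑ v : Fin p, (if u ≠ v then x else 0) = (p : ℝ) * ((p : ℝ) - 1) * x := by
  have h : ∀ u : Fin p, ∑ v : Fin p, (if u ≠ v then x else 0) = ((p : ℝ) - 1) * x := by
    intro u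
    have e : ∀ v : Fin p, (if u ≠ v then x else 0) = x - (if u = v then x else 0) := by
      intro v
      by_cases huv : u = v <;> simp [huv]
    rw [Finset.sum_congr rfl (fun v _ => e v), Finset.sum_sub_distrib, Finset.sum_ite_eq]
    simp
    ring
  rw [Finset.sum_congr rfl (fun u _ => h u)]
  simp
  ring

theorem sum_pairs_const (x : ℝ) :
    ∑ _u : Fin m, ∑ _v : Fin m, ∑ _a : Fin n, ∑ _b : Fin n,
      (if _u ≠ _v ∧ _a ≠ _b then x else 0) = MM m n * x := by
  have h : ∀ u v : Fin m, ∑ a : Fin n, ∑ b : Fin n, (if u ≠ v ∧ a ≠ b then x else 0)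
      = if u ≠ v then ((n : ℝ) * ((n : ℝ) - 1) * x) else 0 := by
    intro u v
    by_cases huv : u = v
    · simp [huv]
    · simp only [ne_eq, huv, not_false_eq_true, true_and, if_true]
      exact sum_ne_const n x
  rw [Finset.sum_congr rfl (fun u _ => Finset.sum_congr rfl (fun v _ => h u v)), sum_ne_const]
  unfold MM
  ring

/-- (K2) `cls` depends only on the key (`Vale.Agent.P335.cls_eq_of_key_eq`); `eq_comm`. -/
theorem heatBath_symm (X Y : Omega r c) : heatBath r c X Y = heatBath r c Y X := by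
  unfold heatBath
  have e1 : (if X = Y then (1 : ℝ) else 0) = (if Y = X then (1 : ℝ) else 0) := by
    by_cases h : X = Y
    · simp [h]
    · have h' : ¬ Y = X := fun e => h e.symm
      simp [h, h']
  rw [e1]
  congr 3
  refine Finset.sum_congr rfl fun u _ => Finset.sum_congr rfl fun v _ =>
    Finset.sum_congr rfl fun a _ => Finset.sum_congr rfl fun b _ => ?_
  by_cases hc : u ≠ v ∧ a ≠ b
  · rw [if_pos hc, if_pos hc]
    by_cases hk : keyBlock u v a b Y = keyBlock u v a b X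
    · rw [if_pos hk, if_pos hk.symm, Vale.Agent.P335.cls_eq_of_key_eq hk]
    · rw [if_neg hk, if_neg (fun e => hk e.symm)]
  · rw [if_neg hc, if_neg hc]

private theorem heatBath_sum_nonneg (X Y : Omega r c) :
    0 ≤ ∑ u : Fin m, ∑ v : Fin m, ∑ a : Fin n, ∑ b : Fin n,
        if u ≠ v ∧ a ≠ b then
          (if keyBlock u v a b Y = keyBlock u v a b X then
            1 / ((cls (keyBlock (r := r) (c := c) u v a b) X).card : ℝ) else 0)
        else 0 := by
  refine Finset.sum_nonneg fun u _ => Finset.sum_nonneg fun v _ =>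
    Finset.sum_nonneg fun a _ => Finset.sum_nonneg fun b _ => ?_
  split_ifs <;> positivity

/-- (K2) -/
theorem heatBath_nonneg (hm : 2 ≤ m) (hn : 2 ≤ n) (X Y : Omega r c) : 0 ≤ heatBath r c X Y := by
  have hM := MM_pos hm hn
  unfold MM at hM
  have hs := heatBath_sum_nonneg r c X Y
  unfold heatBath
  have h1 : (0 : ℝ) ≤ (if X = Y then (1 : ℝ) else 0) := by split_ifs <;> norm_num
  have h2 : (0 : ℝ) ≤ 1 / ((m : ℝ) * ((m : ℝ) - 1) * (n : ℝ) * ((n : ℝ) - 1)) := by
    exact le_of_lt (one_div_pos.mpr hM)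
  exact add_nonneg (mul_nonneg (by norm_num) h1) (mul_nonneg (by norm_num) (mul_nonneg h2 hs))

/-- (K2) -/
theorem heatBath_diag (hm : 2 ≤ m) (hn : 2 ≤ n) (X : Omega r c) : 1 / 2 ≤ heatBath r c X X := by
  have hM := MM_pos hm hn
  unfold MM at hM
  have hs := heatBath_sum_nonneg r c X X
  unfold heatBath
  rw [if_pos rfl]
  have : (0 : ℝ) ≤ 1 / 2 * (1 / ((m : ℝ) * ((m : ℝ) - 1) * (n : ℝ) * ((n : ℝ) - 1)) *
      ∑ u : Fin m, ∑ v : Fin m, ∑ a : Fin n, ∑ b : Fin n,
        if u ≠ v ∧ a ≠ b then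
          (if keyBlock u v a b X = keyBlock u v a b X then
            1 / ((cls (keyBlock (r := r) (c := c) u v a b) X).card : ℝ) else 0)
        else 0) := by
    have h2 : (0 : ℝ) ≤ 1 / ((m : ℝ) * ((m : ℝ) - 1) * (n : ℝ) * ((n : ℝ) - 1)) := by
      exact le_of_lt (one_div_pos.mpr hM)
    exact mul_nonneg (by norm_num) (mul_nonneg h2 hs)
  linarith

/-- (K3) `Vale.Agent.P335.avg_eq_sum`; exchange the sums. -/
theorem heatBath_mulVec (f : Omega r c → ℝ) (X : Omega r c) :
    (heatBath r c).mulVec f X = 1 / 2 * f X + 1 / 2 * (1 / MM m n *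
      ∑ u : Fin m, ∑ v : Fin m, ∑ a : Fin n, ∑ b : Fin n,
        if u ≠ v ∧ a ≠ b then avg (keyBlock u v a b) f X else 0) := by
  have h1 : ∀ Y : Omega r c, heatBath r c X Y * f Y =
      1 / 2 * ((if X = Y then 1 else 0) * f Y) + 1 / 2 * (1 / MM m n *
        ∑ u : Fin m, ∑ v : Fin m, ∑ a : Fin n, ∑ b : Fin n,
          if u ≠ v ∧ a ≠ b then
            (if keyBlock u v a b Y = keyBlock u v a b X then
              f Y / ((cls (keyBlock (r := r) (c := c) u v a b) X).card : ℝ) else 0)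
          else 0) := by
    intro Y
    unfold heatBath MM
    rw [add_mul, mul_assoc, mul_assoc, mul_assoc, Finset.sum_mul]
    congr 3
    refine Finset.sum_congr rfl (fun u _ => ?_)
    rw [Finset.sum_mul]
    refine Finset.sum_congr rfl (fun v _ => ?_)
    rw [Finset.sum_mul]
    refine Finset.sum_congr rfl (fun a _ => ?_)
    rw [Finset.sum_mul]
    refine Finset.sum_congr rfl (fun b _ => ?_)
    split_ifs <;> ring
  unfold Matrix.mulVec dotProduct
  rw [Finset.sum_congr rfl (fun Y _ => h1 Y), Finset.sum_add_distrib, ← Finset.mul_sum,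
    ← Finset.mul_sum, ← Finset.mul_sum]
  congr 2
  · simp
  · congr 1
    rw [Finset.sum_comm]
    refine Finset.sum_congr rfl (fun u _ => ?_)
    rw [Finset.sum_comm]
    refine Finset.sum_congr rfl (fun v _ => ?_)
    rw [Finset.sum_comm]
    refine Finset.sum_congr rfl (fun a _ => ?_)
    rw [Finset.sum_comm]
    refine Finset.sum_congr rfl (fun b _ => ?_)
    by_cases h : u ≠ v ∧ a ≠ b
    · simp only [if_pos h]
      rw [Vale.Agent.P335.avg_eq_sum]
      refine Finset.sum_congr rfl (fun y _ => ?_)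
      by_cases h2 : keyBlock u v a b y = keyBlock u v a b X
      · rw [if_pos h2, if_pos h2]
      · rw [if_neg h2, if_neg h2]
    · simp only [if_neg h]
      simp

/-- (K4) -/
theorem heatBath_row_sum (hm : 2 ≤ m) (hn : 2 ≤ n) (X : Omega r c) :
    ∑ Y, heatBath r c X Y = 1 := by
  have hM := MM_pos hm hn
  have h := heatBath_mulVec r c (fun _ => (1 : ℝ)) X
  have e : (heatBath r c).mulVec (fun _ => (1 : ℝ)) X = ∑ Y, heatBath r c X Y := by
    simp [Matrix.mulVec, dotProduct]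
  rw [e] at h
  rw [h]
  have ha : ∀ (u v : Fin m) (a b : Fin n),
      avg (keyBlock (r := r) (c := c) u v a b) (fun _ => (1 : ℝ)) X = 1 := by
    intro u v a b
    rw [Vale.Agent.P335.avg_of_invariant (fun _ _ _ => rfl)]
  simp only [ha]
  rw [sum_pairs_const]
  field_simp
  norm_num

/-- (K5) `Vale.Agent.P335.dirichlet_eq`, `heatBath_mulVec`, `sum_pairs_const` (with `x = ip f f`). -/
theorem heatBath_dirichlet (hm : 2 ≤ m) (hn : 2 ≤ n) (f : Omega r c → ℝ) :
    1 / 2 * ∑ X, ∑ Y, heatBath r c X Y * (f X - f Y) ^ 2 =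
      1 / (2 * MM m n) * ∑ u : Fin m, ∑ v : Fin m, ∑ a : Fin n, ∑ b : Fin n,
        if u ≠ v ∧ a ≠ b then ip f (f - avg (keyBlock u v a b) f) else 0 := by
  have hM := MM_pos hm hn
  rw [Vale.Agent.P335.dirichlet_eq (heatBath r c) (heatBath_symm r c)
    (heatBath_row_sum r c hm hn) f]
  set S1 : ℝ := ∑ u : Fin m, ∑ v : Fin m, ∑ a : Fin n, ∑ b : Fin n,
    if u ≠ v ∧ a ≠ b then ip f (avg (keyBlock u v a b) f) else 0 with hS1
  have hA : ∑ X, f X * (∑ u : Fin m, ∑ v : Fin m, ∑ a : Fin n, ∑ b : Fin n,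
      if u ≠ v ∧ a ≠ b then avg (keyBlock u v a b) f X else 0) = S1 := by
    simp_rw [Finset.mul_sum]
    rw [Finset.sum_comm]
    refine Finset.sum_congr rfl fun u _ => ?_
    rw [Finset.sum_comm]
    refine Finset.sum_congr rfl fun v _ => ?_
    rw [Finset.sum_comm]
    refine Finset.sum_congr rfl fun a _ => ?_
    rw [Finset.sum_comm]
    refine Finset.sum_congr rfl fun b _ => ?_
    split_ifs
    · rfl
    · simp
  have hB : ∑ u : Fin m, ∑ v : Fin m, ∑ a : Fin n, ∑ b : Fin n,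
      (if u ≠ v ∧ a ≠ b then ip f (f - avg (keyBlock u v a b) f) else 0) =
      MM m n * ip f f - S1 := by
    rw [← sum_pairs_const (m := m) (n := n) (ip f f), hS1]
    simp_rw [← Finset.sum_sub_distrib]
    refine Finset.sum_congr rfl fun u _ => ?_
    refine Finset.sum_congr rfl fun v _ => ?_
    refine Finset.sum_congr rfl fun a _ => ?_
    refine Finset.sum_congr rfl fun b _ => ?_
    split_ifs
    · unfold ip
      rw [← Finset.sum_sub_distrib]
      refine Finset.sum_congr rfl fun X _ => ?_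
      simp only [Pi.sub_apply]
      ring
    · simp
  have hC : ∑ X, f X * (heatBath r c).mulVec f X = 1 / 2 * ip f f + 1 / 2 * (1 / MM m n * S1) := by
    simp_rw [heatBath_mulVec]
    rw [← hA]
    unfold ip
    simp_rw [mul_add]
    rw [Finset.sum_add_distrib, Finset.mul_sum, Finset.mul_sum, Finset.mul_sum]
    congr 1
    · refine Finset.sum_congr rfl fun X _ => ?_
      ring
    · refine Finset.sum_congr rfl fun X _ => ?_
      ring
  have hD : ∑ X, f X ^ 2 = ip f f := by
    unfold ip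
    refine Finset.sum_congr rfl fun X _ => ?_
    ring
  rw [hB, hC, hD]
  field_simp
  ring

/-- (K6) the class of the trivial key is everything, so `avg (fun _ => ()) f X = (∑ f) / card`; then
`ip f (f - E f) = ip (f - E f) (f - E f)` (`Vale.Agent.P335.ip_sub_avg`). -/
theorem var_eq (f : Omega r c → ℝ) :
    ∑ X, (f X - (∑ Z, f Z) / (Fintype.card (Omega r c) : ℝ)) ^ 2 =
      ip f (f - avg (fun _ : Omega r c => ()) f) := by
  rw [Vale.Agent.P335.ip_sub_avg]
  unfold ip
  refine Finset.sum_congr rfl (fun X _ => ?_)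
  have hcls : cls (fun _ : Omega r c => ()) X = Finset.univ := by
    ext Y
    simp [Vale.Agent.P335.mem_cls]
  have h : avg (fun _ : Omega r c => ()) f X = (∑ Z, f Z) / (Fintype.card (Omega r c) : ℝ) := by
    unfold avg
    rw [hcls, Finset.card_univ]
  simp only [Pi.sub_apply, h]
  ring

/-- Poincare inequality for the chain -/
theorem heatBath_poincare (H : ThreeRowLemma) (hm : 2 ≤ m) (hn : 2 ≤ n) (f : Omega r c → ℝ) :
    2 / MM m n * ∑ X, (f X - (∑ Z, f Z) / (Fintype.card (Omega r c) : ℝ)) ^ 2 ≤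
      1 / 2 * ∑ X, ∑ Y, heatBath r c X Y * (f X - f Y) ^ 2 := by
  rw [heatBath_dirichlet r c hm hn, var_eq]
  have h := block_gap (H n) (H 2) f
  have hM := MM_pos hm hn
  have h2 := mul_le_mul_of_nonneg_left h (by positivity : (0 : ℝ) ≤ 1 / (2 * MM m n))
  have e : 2 / MM m n * ip f (f - avg (fun _ : Omega r c => ()) f)
      = 1 / (2 * MM m n) * (4 * ip f (f - avg (fun _ : Omega r c => ()) f)) := by
    field_simp
    ring
  rw [e]
  exact h2

/-- (K7) every entry is at most `N = ∑ r`: injection into `Fin m → Fin n → Fin (N + 1)`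
(`Fintype.card_le_of_injective`, `Fintype.card_fun`/`Fintype.card_pi`, `Fintype.card_fin`, `pow_mul`). -/
theorem card_Omega_le : Fintype.card (Omega r c) ≤ ((∑ i, r i) + 1) ^ (m * n) := by
  have hle : ∀ (X : Omega r c) (i : Fin m) (j : Fin n), X.1 i j < (∑ i, r i) + 1 := by
    intro X i j
    have h1 : X.1 i j ≤ ∑ j, X.1 i j :=
      Finset.single_le_sum (f := fun j => X.1 i j) (fun _ _ => Nat.zero_le _) (Finset.mem_univ j)
    have h2 : ∑ j, X.1 i j = r i := X.2.1 i
    have h3 : r i ≤ ∑ i, r i :=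
      Finset.single_le_sum (f := fun i => r i) (fun _ _ => Nat.zero_le _) (Finset.mem_univ i)
    omega
  let φ : Omega r c → (Fin m → Fin n → Fin ((∑ i, r i) + 1)) :=
    fun X i j => ⟨X.1 i j, hle X i j⟩
  have hinj : Function.Injective φ := by
    intro X Y h
    apply Subtype.ext
    funext i j
    have := congrFun (congrFun h i) j
    exact congrArg Fin.val this
  have h := Fintype.card_le_of_injective φ hinj
  have e : Fintype.card (Fin m → Fin n → Fin ((∑ i, r i) + 1)) = ((∑ i, r i) + 1) ^ (m * n) := by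
    simp only [Fintype.card_fun, Fintype.card_fin]
    rw [← pow_mul, Nat.mul_comm]
  rw [e] at h
  exact h

/-- (K8) pure real analysis: from `S^2 ≤ C e^{-g t}`, `1 ≤ C ≤ B`, `g t ≥ log B + 2 log (1/(2 eps))` conclude `S / 2 ≤ eps`.
(`C e^{-g t} ≤ B e^{-log B} (2 eps)^2 = (2 eps)^2`; `abs_le_of_sq_le_sq'`.) -/
theorem half_le_of_sq_le (S C B g t ε : ℝ) (hS : 0 ≤ S) (hC : 0 < C) (hCB : C ≤ B) (hε : 0 < ε)
    (h : S ^ 2 ≤ C * Real.exp (-(g * t)))
    (ht : Real.log B + 2 * Real.log (1 / (2 * ε)) ≤ g * t) : 1 / 2 * S ≤ ε := by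
  have hB : 0 < B := lt_of_lt_of_le hC hCB
  have h2e : 0 < 2 * ε := by positivity
  have h1 : Real.exp (-(g * t)) ≤ Real.exp (-(Real.log B + 2 * Real.log (1 / (2 * ε)))) := by
    apply Real.exp_le_exp.mpr
    linarith
  have h3 : Real.exp (-(Real.log B + 2 * Real.log (1 / (2 * ε)))) = (2 * ε) ^ 2 / B := by
    have e1 : Real.log (1 / (2 * ε)) = - Real.log (2 * ε) := by
      rw [one_div, Real.log_inv]
    rw [e1]
    have e2 : -(Real.log B + 2 * -Real.log (2 * ε)) = Real.log ((2 * ε) ^ 2 / B) := by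
      rw [Real.log_div (by positivity) (ne_of_gt hB), Real.log_pow]
      push_cast
      ring
    rw [e2, Real.exp_log (by positivity)]
  have h4 : S ^ 2 ≤ (2 * ε) ^ 2 := by
    calc S ^ 2 ≤ C * Real.exp (-(g * t)) := h
      _ ≤ C * ((2 * ε) ^ 2 / B) := by
          rw [← h3]
          exact mul_le_mul_of_nonneg_left h1 hC.le
      _ ≤ B * ((2 * ε) ^ 2 / B) := by
          apply mul_le_mul_of_nonneg_right hCB
          positivity
      _ = (2 * ε) ^ 2 := by
          field_simp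
  have h5 : S ≤ 2 * ε := by
    exact (abs_le_of_sq_le_sq' h4 h2e.le).2
  linarith

/-- (K9) mixing: `Vale.Agent.P335.sq_l1_le_of_poincare` with `gam = 2 / MM m n`, `half_le_of_sq_le` with `C = card`,
`B = (N + 1)^(m n)` (`card_Omega_le`, `Real.log_pow`), `g t = 2 / MM * t ≥ ...` from `ht` (multiply by `2 / MM`). -/
theorem heatBath_mixing (H : ThreeRowLemma) (hm : 2 ≤ m) (hn : 2 ≤ n) [Nonempty (Omega r c)]
    (ε : ℝ) (hε : 0 < ε) (t : ℕ)
    (ht : MM m n / 2 * ((m : ℝ) * n * Real.log ((∑ i, r i : ℕ) + 1) + 2 * Real.log (1 / (2 * ε))) ≤ t)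
    (X : Omega r c) :
    1 / 2 * ∑ Y, |(heatBath r c ^ t) X Y - 1 / (Fintype.card (Omega r c) : ℝ)| ≤ ε := by
  have hM := MM_pos hm hn
  have h1 := Vale.Agent.P335.sq_l1_le_of_poincare (heatBath r c) (heatBath_symm r c)
    (heatBath_nonneg r c hm hn) (heatBath_row_sum r c hm hn) (heatBath_diag r c hm hn)
    (2 / MM m n) (heatBath_poincare r c H hm hn) t X
  have hcard : (0 : ℝ) < (Fintype.card (Omega r c) : ℝ) := by
    exact_mod_cast Fintype.card_pos
  have hCB : (Fintype.card (Omega r c) : ℝ) ≤ (((∑ i, r i : ℕ) : ℝ) + 1) ^ (m * n) := by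
    exact_mod_cast card_Omega_le r c
  refine half_le_of_sq_le _ (Fintype.card (Omega r c) : ℝ) ((((∑ i, r i : ℕ) : ℝ) + 1) ^ (m * n))
    (2 / MM m n) t ε (Finset.sum_nonneg fun _ _ => abs_nonneg _) hcard hCB hε h1 ?_
  rw [Real.log_pow]
  have h2 := mul_le_mul_of_nonneg_left ht (by positivity : (0 : ℝ) ≤ 2 / MM m n)
  have e : 2 / MM m n * (MM m n / 2 * ((m : ℝ) * n * Real.log ((∑ i, r i : ℕ) + 1)
      + 2 * Real.log (1 / (2 * ε))))
      = ((m * n : ℕ) : ℝ) * Real.log ((∑ i, r i : ℕ) + 1) + 2 * Real.log (1 / (2 * ε)) := by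
    push_cast
    field_simp
  rw [e] at h2
  exact h2

end

end Vale.Agent.P328
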