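import Vale.Agent.P328.Triple

/-! # P328: column recursion inside a pair of rows.  A fibre of `keyRows u v` is a set of 2-row tables; transposed, it is a set of
tables with row index `κ` and two columns, to which `rowGap` applies (three-row lemma for `3 x 2` tables). -/

namespace Vale.Agent.P328

open Finset

open Vale.Agent.P335 (avg cls ip avgL)

open scoped Classical

noncomputable section

variable {ι κ : Type} [Fintype ι] [Fintype κ] [DecidableEq ι] [DecidableEq κ] {r : ι → ℕ} {c : κ → ℕ}

/-- (L1 aux) splitting a column sum into the rows `u`, `v` and the rest. -/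
theorem sum_split_two (u v : ι) (huv : u ≠ v) (F : ι → ℕ) :
    ∑ i, F i = F u + F v + ∑ i, (if i = u ∨ i = v then 0 else F i) := by
  have h : ∀ i, F i = (if i = u then F u else 0) + (if i = v then F v else 0) +
      (if i = u ∨ i = v then 0 else F i) := by
    intro i
    by_cases h1 : i = u
    · subst h1
      simp [huv]
    · by_cases h2 : i = v
      · subst h2
        simp [h1]
      · simp [h1, h2]
  calc ∑ i, F i = ∑ i, ((if i = u then F u else 0) + (if i = v then F v else 0) +
      (if i = u ∨ i = v then 0 else F i)) := Finset.sum_congr rfl (fun i _ => h i)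
    _ = F u + F v + ∑ i, (if i = u ∨ i = v then 0 else F i) := by
      rw [Finset.sum_add_distrib, Finset.sum_add_distrib, Finset.sum_ite_eq', Finset.sum_ite_eq']
      simp

/-- (L1 aux) in a fibre of `keyRows u v` the other rows agree. -/
theorem eq_of_keyRows_eq (u v : ι) {X Y : Omega r c} (h : keyRows u v X = keyRows u v Y)
    (i : ι) (hu : i ≠ u) (hv : i ≠ v) (j : κ) : X.1 i j = Y.1 i j := by
  have := congrFun (congrFun h i) j
  simpa [keyRows, hu, hv] using this

/-- (L1 aux) in a fibre of `keyRows u v` the sums of the two rows agree. -/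
theorem add_eq_of_keyRows_eq (u v : ι) (huv : u ≠ v) {X Y : Omega r c}
    (h : keyRows u v X = keyRows u v Y) (j : κ) :
    X.1 u j + X.1 v j = Y.1 u j + Y.1 v j := by
  have h1 := sum_split_two u v huv (fun i => X.1 i j)
  have h2 := sum_split_two u v huv (fun i => Y.1 i j)
  have h3 : ∑ i, (if i = u ∨ i = v then 0 else X.1 i j) =
      ∑ i, (if i = u ∨ i = v then 0 else Y.1 i j) := by
    refine Finset.sum_congr rfl (fun i _ => ?_)
    by_cases h1 : i = u
    · simp [h1]
    · by_cases h2 : i = v
      · simp [h2]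
      · simp only [h1, h2, or_self, if_false]
        exact eq_of_keyRows_eq u v h i h1 h2 j
  have h4 : ∑ i, X.1 i j = c j := X.2.2 j
  have h5 : ∑ i, Y.1 i j = c j := Y.2.2 j
  omega

/-- (L1) the fibre of `keyRows u v` through `X0`, transposed.  Map: `X ↦ fun j k => X (![u, v] k) j`.
Inverse: `Z ↦ fun i j => if i = u then Z j 0 else if i = v then Z j 1 else X0 i j`.
(Row sums of the image: `X u j + X v j = X0 u j + X0 v j` because the column sums agree and the other rows agree;
`Fin.sum_univ_two`.  Column sums of the image: the row sums `r u`, `r v`.) -/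
theorem exists_fib2 (u v : ι) (huv : u ≠ v) (X0 : Omega r c) :
    ∃ e : {X : Omega r c // keyRows u v X = keyRows u v X0} ≃
        Omega (ι := κ) (κ := Fin 2) (fun j => X0.1 u j + X0.1 v j) ![r u, r v],
      ∀ X j, (e X).1 j 0 = X.1.1 u j ∧ (e X).1 j 1 = X.1.1 v j := by
  refine ⟨{ toFun := fun X => ⟨fun j k => X.1.1 (![u, v] k) j, ?_, ?_⟩
            invFun := fun Z => ⟨⟨fun i j => if i = u then Z.1 j 0 else if i = v then Z.1 j 1
              else X0.1 i j, ?_, ?_⟩, ?_⟩
            left_inv := ?_
            right_inv := ?_ }, ?_⟩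
  · intro j
    rw [Fin.sum_univ_two]
    exact add_eq_of_keyRows_eq u v huv X.2 j
  · intro k
    fin_cases k
    · exact X.1.2.1 u
    · exact X.1.2.1 v
  · intro i
    by_cases h1 : i = u
    · subst h1
      simp only [if_true]
      exact Z.2.2 0
    · by_cases h2 : i = v
      · subst h2
        simp only [h1, if_false, if_true]
        exact Z.2.2 1
      · simp only [h1, h2, if_false]
        exact X0.2.1 i
  · intro j
    have key := sum_split_two u v huv
      (fun i => if i = u then Z.1 j 0 else if i = v then Z.1 j 1 else X0.1 i j)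
    have h2 := sum_split_two u v huv (fun i => X0.1 i j)
    have h3 : ∑ i, (if i = u ∨ i = v then 0 else
        (if i = u then Z.1 j 0 else if i = v then Z.1 j 1 else X0.1 i j)) =
        ∑ i, (if i = u ∨ i = v then 0 else X0.1 i j) := by
      refine Finset.sum_congr rfl (fun i _ => ?_)
      by_cases h1 : i = u
      · simp [h1]
      · by_cases h2 : i = v
        · simp [h2]
        · simp [h1, h2]
    rw [h3] at key
    have h4 : Z.1 j 0 + Z.1 j 1 = X0.1 u j + X0.1 v j := by
      have := Z.2.1 j
      rw [Fin.sum_univ_two] at this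
      exact this
    have h5 : ∑ i, X0.1 i j = c j := X0.2.2 j
    simp only [if_true, huv.symm, if_false] at key
    show ∑ i, (if i = u then Z.1 j 0 else if i = v then Z.1 j 1 else X0.1 i j) = c j
    omega
  · funext i j
    by_cases h1 : i = u
    · simp [keyRows, h1]
    · by_cases h2 : i = v
      · simp [keyRows, h2]
      · simp [keyRows, h1, h2]
  · intro X
    apply Subtype.ext
    apply Subtype.ext
    funext i j
    by_cases h1 : i = u
    · subst h1
      simp
    · by_cases h2 : i = v
      · subst h2
        simp [h1]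
      · simp only [h1, h2, if_false]
        exact (eq_of_keyRows_eq u v X.2 i h1 h2 j).symm
  · intro Z
    apply Subtype.ext
    funext j k
    fin_cases k
    · simp
    · simp [huv.symm]
  · intro X j
    exact ⟨rfl, rfl⟩

/-- (L2) inside the fibre, erasing the block (rows `u v`, columns `a b`) corresponds to erasing the rows `a b` of the transposed
table.  (Evaluate at `(u, j)`, `(v, j)` resp. `(j, 0)`, `(j, 1)`; `Fin.forall_fin_two`/`fin_cases`; outside the rows `u v` both tables agree with
`X0`.) -/
theorem keyBlock_iff_keyRows (u v : ι) (huv : u ≠ v) (X0 : Omega r c)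
    (e : {X : Omega r c // keyRows u v X = keyRows u v X0} ≃
        Omega (ι := κ) (κ := Fin 2) (fun j => X0.1 u j + X0.1 v j) ![r u, r v])
    (he : ∀ X j, (e X).1 j 0 = X.1.1 u j ∧ (e X).1 j 1 = X.1.1 v j) (a b : κ)
    (x y : {X : Omega r c // keyRows u v X = keyRows u v X0}) :
    keyBlock u v a b x.1 = keyBlock u v a b y.1 ↔ keyRows a b (e x) = keyRows a b (e y) := by
  constructor
  · intro h
    funext j t
    unfold keyRows
    by_cases hj : j = a ∨ j = b
    · rw [if_pos hj, if_pos hj]
    · rw [if_neg hj, if_neg hj]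
      have hu := congrFun (congrFun h u) j
      have hv := congrFun (congrFun h v) j
      unfold keyBlock at hu hv
      rw [if_neg (fun h => hj h.2), if_neg (fun h => hj h.2)] at hu hv
      fin_cases t
      · exact ((he x j).1.trans hu).trans (he y j).1.symm
      · exact ((he x j).2.trans hv).trans (he y j).2.symm
  · intro h
    funext i j
    unfold keyBlock
    by_cases hc : (i = u ∨ i = v) ∧ (j = a ∨ j = b)
    · rw [if_pos hc, if_pos hc]
    · rw [if_neg hc, if_neg hc]
      by_cases hi : i = u ∨ i = v
      · have hj : ¬ (j = a ∨ j = b) := fun hj => hc ⟨hi, hj⟩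
        have h0 := congrFun (congrFun h j) 0
        have h1 := congrFun (congrFun h j) 1
        unfold keyRows at h0 h1
        rw [if_neg hj, if_neg hj] at h0 h1
        rcases hi with rfl | rfl
        · exact ((he x j).1.symm.trans h0).trans (he y j).1
        · exact ((he x j).2.symm.trans h1).trans (he y j).2
      · have hx := congrFun (congrFun x.2 i) j
        have hy := congrFun (congrFun y.2 i) j
        unfold keyRows at hx hy
        rw [if_neg hi, if_neg hi] at hx hy
        exact hx.trans hy.symm

/-- (L3) the inequality on one fibre.  `e`, `he` from `exists_fib2`, `g = fun Z => f (e.symm Z).1`.  By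
`Vale.Agent.P335.avg_transport`: `avg (keyBlock u v a b) f x.1 = avg (keyRows a b) g (e x)` (`keyBlock_iff_keyRows`,
`keyRows_eq_of_keyBlock_eq`) and `avg (keyRows u v) f x.1 = avg (fun _ => ()) g (e x)` (all points of the fibre have the same key).
`Equiv.sum_comp e`; then this is `rowGap H2 g` with `ip`, `DD`, `RR` unfolded (`ip_DD_right`). -/
theorem fibre2_ineq (H2 : ThreeRowFor (Fin 2)) (u v : ι) (huv : u ≠ v) (X0 : Omega r c)
    (f : Omega r c → ℝ) :
    2 * ∑ x : {X : Omega r c // keyRows u v X = keyRows u v X0},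
        f x.1 * (f x.1 - avg (keyRows u v) f x.1) ≤
      ∑ x : {X : Omega r c // keyRows u v X = keyRows u v X0}, ∑ a : κ, ∑ b : κ,
        if a ≠ b then f x.1 * (f x.1 - avg (keyBlock u v a b) f x.1) else 0 := by
  obtain ⟨e, he⟩ := exists_fib2 u v huv X0
  set g : Omega (ι := κ) (κ := Fin 2) (fun j => X0.1 u j + X0.1 v j) ![r u, r v] → ℝ :=
    fun Z => f (e.symm Z).1 with hg
  have h1 : ∀ (a b : κ) (x : {X : Omega r c // keyRows u v X = keyRows u v X0}),
      avg (keyBlock u v a b) f x.1 = avg (keyRows a b) g (e x) := by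
    intro a b x
    refine Vale.Agent.P335.avg_transport (keyBlock u v a b) (keyRows a b)
      (fun X => keyRows u v X = keyRows u v X0) ?_ e
      (fun x y => keyBlock_iff_keyRows u v huv X0 e he a b x y) f x
    intro x y hxy
    have := keyRows_eq_of_keyBlock_eq u v a b hxy
    rw [this]
  have h2 : ∀ x : {X : Omega r c // keyRows u v X = keyRows u v X0},
      avg (keyRows u v) f x.1 = avg (fun _ => ()) g (e x) := by
    intro x
    refine Vale.Agent.P335.avg_transport (keyRows u v) (fun _ => ())
      (fun X => keyRows u v X = keyRows u v X0) ?_ e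
      (fun x y => ⟨fun _ => rfl, fun _ => x.2.trans y.2.symm⟩) f x
    intro x y hxy
    rw [hxy]
  have h3 : ∀ x : {X : Omega r c // keyRows u v X = keyRows u v X0}, f x.1 = g (e x) := by
    intro x
    simp [hg]
  have e1 : ∑ x : {X : Omega r c // keyRows u v X = keyRows u v X0},
      f x.1 * (f x.1 - avg (keyRows u v) f x.1) =
      ∑ Z, g Z * (g Z - avg (fun _ => ()) g Z) := by
    rw [← Equiv.sum_comp e]
    refine Finset.sum_congr rfl fun x _ => ?_
    rw [h2, h3]
  have e2 : ∑ x : {X : Omega r c // keyRows u v X = keyRows u v X0}, ∑ a : κ, ∑ b : κ,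
        (if a ≠ b then f x.1 * (f x.1 - avg (keyBlock u v a b) f x.1) else 0) =
      ∑ Z, ∑ a : κ, ∑ b : κ, if a ≠ b then g Z * (g Z - avg (keyRows a b) g Z) else 0 := by
    rw [← Equiv.sum_comp e]
    refine Finset.sum_congr rfl fun x _ => ?_
    refine Finset.sum_congr rfl fun a _ => ?_
    refine Finset.sum_congr rfl fun b _ => ?_
    rw [h1, h3]
  rw [e1, e2]
  have h := rowGap H2 g
  have e3 : ip g (g - avg (fun _ => ()) g) = ∑ Z, g Z * (g Z - avg (fun _ => ()) g Z) := rfl
  have e4 : ip g (DD (fun a b => keyRows a b) g) =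
      ∑ Z, ∑ a : κ, ∑ b : κ, if a ≠ b then g Z * (g Z - avg (keyRows a b) g Z) else 0 := by
    unfold ip DD RR
    refine Finset.sum_congr rfl fun Z _ => ?_
    rw [Finset.mul_sum]
    refine Finset.sum_congr rfl fun a _ => ?_
    rw [Finset.mul_sum]
    refine Finset.sum_congr rfl fun b _ => ?_
    split_ifs
    · rfl
    · simp
  rw [e3, e4] at h
  exact h

/-- (L4) **Column recursion** (same summation over the classes as in `triple_ineq`: `Vale.Agent.P335.sum_avg` for the key `keyRows u v`,
sum_cls_eq_sum_subtype, `fibre2_ineq`; finally exchange the sums, `Finset.sum_comm`, to get the `ip` form). -/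
theorem col_ineq (H2 : ThreeRowFor (Fin 2)) (u v : ι) (huv : u ≠ v) (f : Omega r c → ℝ) :
    2 * ip f (f - avg (keyRows u v) f) ≤
      ∑ a : κ, ∑ b : κ, if a ≠ b then ip f (f - avg (keyBlock u v a b) f) else 0 := by
  set F : Omega r c → ℝ := fun X =>
    (∑ a : κ, ∑ b : κ, if a ≠ b then f X * (f X - avg (keyBlock u v a b) f X) else 0) -
      2 * (f X * (f X - avg (keyRows u v) f X)) with hF
  have hfib : ∀ X0 : Omega r c, 0 ≤ ∑ X ∈ cls (keyRows u v) X0, F X := by
    intro X0
    have h := fibre2_ineq H2 u v huv X0 f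
    rw [Finset.sum_subtype (cls (keyRows u v) X0)
      (p := fun X => keyRows u v X = keyRows u v X0)
      (fun X => Vale.Agent.P335.mem_cls) F, hF]
    simp only [sum_sub_distrib, ← mul_sum]
    linarith
  have hsum : 0 ≤ ∑ X, F X := by
    rw [← Vale.Agent.P335.sum_avg (keyRows u v) F]
    refine sum_nonneg (fun X0 _ => ?_)
    unfold Vale.Agent.P335.avg
    exact div_nonneg (hfib X0) (Nat.cast_nonneg _)
  rw [hF, sum_sub_distrib, ← mul_sum] at hsum
  have e1 : ∑ X : Omega r c, ∑ a : κ, ∑ b : κ,
      (if a ≠ b then f X * (f X - avg (keyBlock u v a b) f X) else 0) =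
      ∑ a : κ, ∑ b : κ, if a ≠ b then ip f (f - avg (keyBlock u v a b) f) else 0 := by
    rw [sum_comm]
    refine sum_congr rfl (fun a _ => ?_)
    rw [sum_comm]
    refine sum_congr rfl (fun b _ => ?_)
    by_cases hab : a ≠ b
    · simp only [if_pos hab]
      rfl
    · simp only [if_neg hab, sum_const_zero]
  rw [e1] at hsum
  have e2 : ip f (f - avg (keyRows u v) f) = ∑ X, f X * (f X - avg (keyRows u v) f X) := rfl
  rw [e2]
  linarith

/-- (L5) rows and columns together: `rowGap`, `ip_DD_right` (`RR k u v f = f - avg (k u v) f` by `rfl`), `col_ineq` termwise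
(`Finset.sum_le_sum`, `Finset.mul_sum`), and `if u ≠ v ∧ a ≠ b` versus nested ifs. -/
theorem block_gap (H : ThreeRowFor κ) (H2 : ThreeRowFor (Fin 2)) (f : Omega r c → ℝ) :
    4 * ip f (f - avg (fun _ : Omega r c => ()) f) ≤
      ∑ u : ι, ∑ v : ι, ∑ a : κ, ∑ b : κ,
        if u ≠ v ∧ a ≠ b then ip f (f - avg (keyBlock u v a b) f) else 0 := by
  have h1 := rowGap H f
  rw [ip_DD_right] at h1
  have h2 : 2 * (∑ u : ι, ∑ v : ι, if u ≠ v then
      ip f (RR (fun u v => keyRows (r := r) (c := c) u v) u v f) else 0) ≤
      ∑ u : ι, ∑ v : ι, ∑ a : κ, ∑ b : κ,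
        if u ≠ v ∧ a ≠ b then ip f (f - avg (keyBlock u v a b) f) else 0 := by
    rw [Finset.mul_sum]
    apply Finset.sum_le_sum
    intro u _
    rw [Finset.mul_sum]
    apply Finset.sum_le_sum
    intro v _
    by_cases huv : u ≠ v
    · rw [if_pos huv]
      have h3 := col_ineq H2 u v huv f
      refine le_trans h3 (le_of_eq ?_)
      refine Finset.sum_congr rfl fun a _ => Finset.sum_congr rfl fun b _ => ?_
      by_cases hab : a ≠ b
      · rw [if_pos hab, if_pos ⟨huv, hab⟩]
      · rw [if_neg hab, if_neg (fun h => hab h.2)]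
    · rw [if_neg huv, mul_zero]
      refine le_of_eq (Eq.symm ?_)
      refine Finset.sum_eq_zero fun a _ => Finset.sum_eq_zero fun b _ => ?_
      rw [if_neg (fun h => huv h.1)]
  linarith

end

end Vale.Agent.P328
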