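import Vale.Agent.P328.Defs
import Vale.Agent.P328.Caputo

/-! # P328: resampling two disjoint pairs of rows commutes -/

namespace Vale.Agent.P328

open Finset

open Vale.Agent.P335 (avg cls ip)

open scoped Classical

noncomputable section

variable {ι κ : Type} [Fintype ι] [Fintype κ] [DecidableEq ι] [DecidableEq κ] {r : ι → ℕ} {c : κ → ℕ}

/-- (B1) `W` = rows `u`, `v` of `Y`, rows `w`, `x` of `Z`, all other rows of `X`.  Pointwise `W i j + X i j = Y i j + Z i j`
(by `h1`, `h2` evaluated at `(i, j)`), which gives the column sums; every row of `W` is a row of `Y`, `Z` or `X`. -/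
theorem rect_isTable (u v w x : ι) (h : Dist4 u v w x) (X Y Z : Omega r c)
    (h1 : keyRows u v X = keyRows u v Y) (h2 : keyRows w x X = keyRows w x Z) :
    IsTable r c (fun i j => if i = u ∨ i = v then Y.1 i j else if i = w ∨ i = x then Z.1 i j
      else X.1 i j) := by
  obtain ⟨huv, huw, hux, hvw, hvx, hwx⟩ := h
  refine ⟨fun i => ?_, fun j => ?_⟩
  · by_cases huv' : i = u ∨ i = v
    · simp only [if_pos huv']
      exact Y.2.1 i
    · simp only [if_neg huv']
      by_cases hwx' : i = w ∨ i = x
      · simp only [if_pos hwx']
        exact Z.2.1 i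
      · simp only [if_neg hwx']
        exact X.2.1 i
  · have key : ∀ i, (if i = u ∨ i = v then Y.1 i j else if i = w ∨ i = x then Z.1 i j
        else X.1 i j) + X.1 i j = Y.1 i j + Z.1 i j := by
      intro i
      have e1 := congrFun (congrFun h1 i) j
      have e2 := congrFun (congrFun h2 i) j
      simp only [keyRows] at e1 e2
      by_cases huv' : i = u ∨ i = v
      · have hwx' : ¬ (i = w ∨ i = x) := by
          rcases huv' with rfl | rfl
          · rintro (h | h)
            · exact huw h
            · exact hux h
          · rintro (h | h)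
            · exact hvw h
            · exact hvx h
        simp only [if_neg hwx'] at e2
        simp only [if_pos huv']
        omega
      · simp only [if_neg huv'] at e1 ⊢
        by_cases hwx' : i = w ∨ i = x
        · simp only [if_pos hwx']
          omega
        · simp only [if_neg hwx'] at e2 ⊢
          omega
    have hs := Finset.sum_congr (rfl : (Finset.univ : Finset ι) = Finset.univ) (fun i _ => key i)
    rw [Finset.sum_add_distrib, Finset.sum_add_distrib, X.2.2 j, Y.2.2 j, Z.2.2 j] at hs
    exact Nat.add_right_cancel hs

/-- (B2) rectangle property.  Existence: the table of `rect_isTable`.  Uniqueness: the first equation determines the rows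
outside `{w, x}`, the second one the rows outside `{u, v}`. -/
theorem rows_rect (u v w x : ι) (h : Dist4 u v w x) (X Y Z : Omega r c)
    (h1 : keyRows u v X = keyRows u v Y) (h2 : keyRows w x X = keyRows w x Z) :
    ∃! W : Omega r c, keyRows w x Y = keyRows w x W ∧ keyRows u v Z = keyRows u v W := by
  obtain ⟨huv, huw, hux, hvw, hvx, hwx⟩ := h
  refine ⟨⟨_, rect_isTable u v w x ⟨huv, huw, hux, hvw, hvx, hwx⟩ X Y Z h1 h2⟩, ⟨?_, ?_⟩, ?_⟩
  · funext i j
    have e1 := congrFun (congrFun h1 i) j
    simp only [keyRows] at e1 ⊢
    by_cases hwx' : i = w ∨ i = x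
    · simp only [if_pos hwx']
    · simp only [if_neg hwx']
      by_cases huv' : i = u ∨ i = v
      · simp only [if_pos huv']
      · simp only [if_neg huv'] at e1 ⊢
        exact e1.symm
  · funext i j
    have e2 := congrFun (congrFun h2 i) j
    simp only [keyRows] at e2 ⊢
    by_cases huv' : i = u ∨ i = v
    · simp only [if_pos huv']
    · simp only [if_neg huv']
      by_cases hwx' : i = w ∨ i = x
      · simp only [if_pos hwx']
      · simp only [if_neg hwx'] at e2 ⊢
        exact e2.symm
  · rintro W' ⟨g1, g2⟩
    apply Subtype.ext
    funext i j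
    have e1 := congrFun (congrFun h1 i) j
    have e2 := congrFun (congrFun h2 i) j
    have f1 := congrFun (congrFun g1 i) j
    have f2 := congrFun (congrFun g2 i) j
    simp only [keyRows] at e1 e2 f1 f2
    show W'.1 i j = _
    by_cases huv' : i = u ∨ i = v
    · have hwx' : ¬ (i = w ∨ i = x) := by
        rcases huv' with rfl | rfl
        · rintro (h | h)
          · exact huw h
          · exact hux h
        · rintro (h | h)
          · exact hvw h
          · exact hvx h
      simp only [if_neg hwx'] at f1
      simp only [if_pos huv']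
      exact f1.symm
    · simp only [if_neg huv'] at f2 e1 ⊢
      by_cases hwx' : i = w ∨ i = x
      · simp only [if_pos hwx']
        exact f2.symm
      · simp only [if_neg hwx'] at e2 ⊢
        rw [← f2, e2]

theorem rows_comm (u v w x : ι) (h : Dist4 u v w x) (f : Omega r c → ℝ) :
    avg (keyRows u v) (avg (keyRows w x) f) = avg (keyRows w x) (avg (keyRows u v) f) :=
  Vale.Agent.P335.avg_comm_of_rect' (fun X Y Z h1 h2 => rows_rect u v w x h X Y Z h1 h2) f

theorem rows_disj (u v w x : ι) (h : Dist4 u v w x) (f : Omega r c → ℝ) :
    0 ≤ ip (RR (fun u v => keyRows (r := r) (c := c) u v) u v f)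
      (RR (fun u v => keyRows (r := r) (c := c) u v) w x f) :=
  ip_sub_avg_comm_nonneg _ _ (fun f => rows_comm u v w x h f) f

theorem keyRows_comm (u v : ι) : keyRows (r := r) (c := c) u v = keyRows v u := by
  funext X i j
  unfold keyRows
  by_cases h : i = u ∨ i = v
  · rw [if_pos h, if_pos h.symm]
  · rw [if_neg h, if_neg (fun h' => h h'.symm)]

end

end Vale.Agent.P328
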