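import Vale.Agent.P328.Defs
import Vale.Agent.P328.Caputo

/-! # P328: the 2 x 2 moves connect the set of tables -/

namespace Vale.Agent.P328

open Finset

open Vale.Agent.P335 (avg cls ip)

open scoped Classical

noncomputable section

variable {ι κ : Type} [Fintype ι] [Fintype κ] [DecidableEq ι] [DecidableEq κ] {r : ι → ℕ} {c : κ → ℕ}

/-- l1 distance of two tables -/
def dist1 (X Y : Omega r c) : ℕ := ∑ i, ∑ j, ((X.1 i j : ℤ) - (Y.1 i j : ℤ)).natAbs

/-- (C1) `X ≠ Y`: some cell differs.  If `X < Y` there, equality of the row sums gives a cell of the same row with `X > Y`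
(`Finset.exists_lt_of_sum_lt` or by contradiction with `Finset.sum_lt_sum`).  So there is `(u, a)` with `Y u a < X u a`.
Row `u` has equal sums: there is `b` with `X u b < Y u b`.  Column `b` has equal sums: there is `v` with `Y v b < X v b`.
`a ≠ b` and `u ≠ v` are automatic. -/
theorem exists_cells (X Y : Omega r c) (h : X ≠ Y) :
    ∃ (u v : ι) (a b : κ), u ≠ v ∧ a ≠ b ∧ Y.1 u a < X.1 u a ∧ X.1 u b < Y.1 u b ∧
      Y.1 v b < X.1 v b := by
  have hrow : ∀ (P Q : Omega r c) (i : ι) (j : κ), P.1 i j < Q.1 i j → ∃ j', Q.1 i j' < P.1 i j' := by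
    intro P Q i j hlt
    by_contra hcon
    push Not at hcon
    have h1 : ∑ j', P.1 i j' < ∑ j', Q.1 i j' :=
      Finset.sum_lt_sum (fun j' _ => hcon j') ⟨j, Finset.mem_univ j, hlt⟩
    rw [P.2.1 i, Q.2.1 i] at h1
    exact lt_irrefl _ h1
  have hcol : ∀ (P Q : Omega r c) (i : ι) (j : κ), P.1 i j < Q.1 i j → ∃ i', Q.1 i' j < P.1 i' j := by
    intro P Q i j hlt
    by_contra hcon
    push Not at hcon
    have h1 : ∑ i', P.1 i' j < ∑ i', Q.1 i' j :=
      Finset.sum_lt_sum (fun i' _ => hcon i') ⟨i, Finset.mem_univ i, hlt⟩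
    rw [P.2.2 j, Q.2.2 j] at h1
    exact lt_irrefl _ h1
  have hne : ∃ i j, X.1 i j ≠ Y.1 i j := by
    by_contra hcon
    push Not at hcon
    exact h (Subtype.ext (funext fun i => funext fun j => hcon i j))
  obtain ⟨i, j, hij⟩ := hne
  have hA : ∃ u a, Y.1 u a < X.1 u a := by
    rcases lt_or_gt_of_ne hij with h1 | h1
    · obtain ⟨j', hj'⟩ := hrow X Y i j h1
      exact ⟨i, j', hj'⟩
    · exact ⟨i, j, h1⟩
  obtain ⟨u, a, hua⟩ := hA
  obtain ⟨b, hub⟩ := hrow Y X u a hua
  obtain ⟨v, hvb⟩ := hcol X Y u b hub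
  refine ⟨u, v, a, b, ?_, ?_, hua, hub, hvb⟩
  · rintro rfl
    exact lt_asymm hub hvb
  · rintro rfl
    exact lt_asymm hua hub

/-- the table after the move `- e_ua + e_ub - e_vb + e_va` -/
def moved (X : ι → κ → ℕ) (u v : ι) (a b : κ) : ι → κ → ℕ := fun i j =>
  if i = u ∧ j = a then X u a - 1 else if i = u ∧ j = b then X u b + 1
  else if i = v ∧ j = b then X v b - 1 else if i = v ∧ j = a then X v a + 1 else X i j

theorem moved_pointwise (X : ι → κ → ℕ) (u v : ι) (a b : κ) (huv : u ≠ v) (hab : a ≠ b)
    (h1 : 0 < X u a) (h3 : 0 < X v b) (i : ι) (j : κ) :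
    moved X u v a b i j + (if i = u ∧ j = a then 1 else 0) + (if i = v ∧ j = b then 1 else 0)
      = X i j + (if i = u ∧ j = b then 1 else 0) + (if i = v ∧ j = a then 1 else 0) := by
  unfold moved
  by_cases hiu : i = u
  · subst hiu
    by_cases hja : j = a
    · subst hja
      simp [huv, hab]
      omega
    · by_cases hjb : j = b
      · subst hjb
        simp [huv, hja]
      · simp [huv, hja, hjb]
  · by_cases hiv : i = v
    · subst hiv
      by_cases hja : j = a
      · subst hja
        simp [hiu, hab]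
      · by_cases hjb : j = b
        · subst hjb
          simp [hiu, hja]
          omega
        · simp [hiu, hja, hjb]
    · simp [hiu, hiv]

theorem sum_ind_col (i u : ι) (a : κ) :
    ∑ j : κ, (if i = u ∧ j = a then 1 else 0 : ℕ) = if i = u then 1 else 0 := by
  by_cases h : i = u
  · simp [h]
  · simp [h]

theorem sum_ind_row (j a : κ) (u : ι) :
    ∑ i : ι, (if i = u ∧ j = a then 1 else 0 : ℕ) = if j = a then 1 else 0 := by
  by_cases h : j = a
  · simp [h]
  · simp [h]

/-- (C2) row sums and column sums are unchanged.  Suggestion: prove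
`moved X u v a b i j + [i=u ∧ j=a] + [i=v ∧ j=b] = X i j + [i=u ∧ j=b] + [i=v ∧ j=a]` (indicators as `if .. then 1 else 0`)
pointwise by cases, sum it over `j` (resp. `i`) and evaluate the indicator sums (`Finset.sum_ite_eq`). -/
theorem moved_isTable (X : Omega r c) (u v : ι) (a b : κ) (huv : u ≠ v) (hab : a ≠ b)
    (h1 : 0 < X.1 u a) (h3 : 0 < X.1 v b) : IsTable r c (moved X.1 u v a b) := by
  constructor
  · intro i
    have h := Finset.sum_congr (s₁ := (Finset.univ : Finset κ)) rfl
      (fun j _ => moved_pointwise X.1 u v a b huv hab h1 h3 i j)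
    simp only [Finset.sum_add_distrib, sum_ind_col] at h
    have := X.2.1 i
    omega
  · intro j
    have h := Finset.sum_congr (s₁ := (Finset.univ : Finset ι)) rfl
      (fun i _ => moved_pointwise X.1 u v a b huv hab h1 h3 i j)
    simp only [Finset.sum_add_distrib, sum_ind_row] at h
    have := X.2.2 j
    omega

theorem dist_pointwise (X Y : ι → κ → ℕ) (u v : ι) (a b : κ) (huv : u ≠ v) (hab : a ≠ b)
    (h1 : Y u a < X u a) (h2 : X u b < Y u b) (h3 : Y v b < X v b) (i : ι) (j : κ) :
    ((moved X u v a b i j : ℤ) - (Y i j : ℤ)).natAbs + (if i = u ∧ j = a then 1 else 0)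
      + (if i = u ∧ j = b then 1 else 0) + (if i = v ∧ j = b then 1 else 0)
      ≤ ((X i j : ℤ) - (Y i j : ℤ)).natAbs + (if i = v ∧ j = a then 1 else 0) := by
  unfold moved
  by_cases hiu : i = u
  · subst hiu
    by_cases hja : j = a
    · subst hja
      simp [huv, hab]
      omega
    · by_cases hjb : j = b
      · subst hjb
        simp [huv, hja]
        omega
      · simp [huv, hja, hjb]
  · by_cases hiv : i = v
    · subst hiv
      by_cases hja : j = a
      · subst hja
        simp [hiu, hab]
        omega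
      · by_cases hjb : j = b
        · subst hjb
          simp [hiu, hja]
          omega
        · simp [hiu, hja, hjb]
    · simp [hiu, hiv]

theorem sum_sum_ind (u : ι) (a : κ) :
    ∑ i : ι, ∑ j : κ, (if i = u ∧ j = a then 1 else 0 : ℕ) = 1 := by
  simp only [sum_ind_col]
  simp

/-- (C3) the distance to `Y` decreases: the cells `(u,a)`, `(u,b)`, `(v,b)` each gain 1, the cell `(v,a)` loses at most 1,
all other cells are unchanged.  Suggestion: with `D Z i j = natAbs (Z i j - Y i j)`, prove pointwise
`D X' i j + [i=u∧j=a] + [i=u∧j=b] + [i=v∧j=b] ≤ D X i j + [i=v∧j=a]` (cases + omega), sum over `i`, `j`. -/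
theorem moved_dist (X Y X' : Omega r c) (u v : ι) (a b : κ) (huv : u ≠ v) (hab : a ≠ b)
    (h1 : Y.1 u a < X.1 u a) (h2 : X.1 u b < Y.1 u b) (h3 : Y.1 v b < X.1 v b)
    (hX' : X'.1 = moved X.1 u v a b) : dist1 X' Y < dist1 X Y := by
  unfold dist1
  rw [hX']
  have h := Finset.sum_le_sum (s := (Finset.univ : Finset ι)) (fun i _ =>
    Finset.sum_le_sum (s := (Finset.univ : Finset κ)) (fun j _ =>
      dist_pointwise X.1 Y.1 u v a b huv hab h1 h2 h3 i j))
  simp only [Finset.sum_add_distrib, sum_sum_ind] at h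
  omega

/-- (C4) outside the block nothing changes (`funext`, `unfold keyBlock moved`, cases). -/
theorem moved_keyBlock (X X' : Omega r c) (u v : ι) (a b : κ)
    (hX' : X'.1 = moved X.1 u v a b) : keyBlock u v a b X' = keyBlock u v a b X := by
  funext i j
  unfold keyBlock
  rw [hX']
  unfold moved
  split_ifs <;> first | rfl | (exfalso; tauto)

/-- (C4) strong induction on `dist1 X Y` (`Nat.strong_induction_on`, generalising `X`): if `X = Y` done; otherwise
`exists_cells`, `moved_isTable`, `moved_dist`, `moved_keyBlock`. -/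
theorem const_of_block_invariant (f : Omega r c → ℝ)
    (h : ∀ (u v : ι) (a b : κ), u ≠ v → a ≠ b → ∀ X X' : Omega r c,
      keyBlock u v a b X' = keyBlock u v a b X → f X' = f X) (X Y : Omega r c) : f X = f Y := by
  have key : ∀ n : ℕ, ∀ X : Omega r c, dist1 X Y = n → f X = f Y := by
    intro n
    induction n using Nat.strong_induction_on with
    | _ n ih =>
      intro X hn
      by_cases hXY : X = Y
      · rw [hXY]
      · obtain ⟨u, v, a, b, huv, hab, h1, h2, h3⟩ := exists_cells X Y hXY
        have hT : IsTable r c (moved X.1 u v a b) :=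
          moved_isTable X u v a b huv hab (by omega) (by omega)
        have hd : dist1 (⟨moved X.1 u v a b, hT⟩ : Omega r c) Y < dist1 X Y :=
          moved_dist X Y ⟨moved X.1 u v a b, hT⟩ u v a b huv hab h1 h2 h3 rfl
        have hk : keyBlock u v a b (⟨moved X.1 u v a b, hT⟩ : Omega r c) = keyBlock u v a b X :=
          moved_keyBlock X ⟨moved X.1 u v a b, hT⟩ u v a b rfl
        have h4 := h u v a b huv hab X ⟨moved X.1 u v a b, hT⟩ hk
        rw [← h4]
        exact ih _ (hn ▸ hd) _ rfl
  exact key _ X rfl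

/-- (C5) equal block keys give equal row keys (evaluate at `(i, j)`; if `i` is `u` or `v` both sides are 0). -/
theorem keyRows_eq_of_keyBlock_eq (u v : ι) (a b : κ) {X X' : Omega r c}
    (h : keyBlock u v a b X' = keyBlock u v a b X) : keyRows u v X' = keyRows u v X := by
  funext i j
  have h1 := congrFun (congrFun h i) j
  unfold keyBlock at h1
  unfold keyRows
  by_cases hi : i = u ∨ i = v
  · rw [if_pos hi, if_pos hi]
  · rw [if_neg hi, if_neg hi]
    rw [if_neg (fun e => hi e.1), if_neg (fun e => hi e.1)] at h1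
    exact h1

/-- (C5) `avg k f = f` makes `f` constant on the classes of `k` (`Vale.Agent.P335.avg_congr_key`); then
`const_of_block_invariant` and `keyRows_eq_of_keyBlock_eq`. -/
theorem const_of_rows_invariant (f : Omega r c → ℝ)
    (h : ∀ u v : ι, u ≠ v → avg (keyRows (r := r) (c := c) u v) f = f) (X Y : Omega r c) :
    f X = f Y := by
  refine const_of_block_invariant f ?_ X Y
  intro u v a b huv _ X X' hk
  have hk' := keyRows_eq_of_keyBlock_eq u v a b hk
  have h1 := Vale.Agent.P335.avg_congr_key f hk'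
  rw [h u v huv] at h1
  exact h1

end

end Vale.Agent.P328
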