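import Vale.Agent.P335.Avg

/-!
# P328: contingency tables, conditional expectations, the three-row lemma, the 2 x 2 heat-bath chain

`avg k f` (file P335/Avg) is the conditional expectation of `f` given the key `k` for the uniform
measure on a finite type; `cls k x` is the class of `x` (all points with the same key).
-/

namespace Vale.Agent.P328

open Finset

open Vale.Agent.P335 (avg cls)

open scoped Classical

noncomputable section

variable {ι κ : Type} [Fintype ι] [Fintype κ]

/-- `X` is a contingency table with row sums `r` and column sums `c`. -/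
def IsTable (r : ι → ℕ) (c : κ → ℕ) (X : ι → κ → ℕ) : Prop :=
  (∀ i, ∑ j, X i j = r i) ∧ (∀ j, ∑ i, X i j = c j)

/-- The set of contingency tables with row sums `r` and column sums `c`. -/
def Omega (r : ι → ℕ) (c : κ → ℕ) : Type := {X : ι → κ → ℕ // IsTable r c X}

theorem isTable_finite (r : ι → ℕ) (c : κ → ℕ) : {X : ι → κ → ℕ | IsTable r c X}.Finite := by
  apply Set.Finite.subset (Set.finite_Icc (0 : ι → κ → ℕ) (fun i _ => r i))
  intro X hX
  refine ⟨fun i j => Nat.zero_le _, fun i j => ?_⟩
  have := hX.1 i
  calc X i j ≤ ∑ j, X i j :=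
        Finset.single_le_sum (f := fun j => X i j) (fun _ _ => Nat.zero_le _) (Finset.mem_univ j)
    _ = r i := this

instance (r : ι → ℕ) (c : κ → ℕ) : Fintype (Omega r c) :=
  @Fintype.ofFinite _ (isTable_finite r c).to_subtype

variable {r : ι → ℕ} {c : κ → ℕ}

/-- The table with the rows `u`, `v` erased. -/
def keyRows (u v : ι) (X : Omega r c) : ι → κ → ℕ :=
  fun i j => if i = u ∨ i = v then 0 else X.1 i j

/-- The table with the 2 x 2 block (rows `u`, `v`, columns `a`, `b`) erased. -/
def keyBlock (u v : ι) (a b : κ) (X : Omega r c) : ι → κ → ℕ :=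
  fun i j => if (i = u ∨ i = v) ∧ (j = a ∨ j = b) then 0 else X.1 i j

/-- The three-row lemma for the column index type `κ`: on the tables with three rows,
`Pi_0 + Pi_1 + Pi_2 <= 2` on functions of mean zero, `Pi_k` = conditional expectation given row `k`. -/
def ThreeRowFor (κ : Type) [Fintype κ] : Prop :=
  ∀ (r : Fin 3 → ℕ) (c : κ → ℕ) (f : Omega r c → ℝ), ∑ X, f X = 0 →
    ∑ k : Fin 3, ∑ X, f X * avg (fun Y : Omega r c => Y.1 k) f X ≤ 2 * ∑ X, f X ^ 2

/-- The three-row lemma: all `3 x n` tables. -/
def ThreeRowLemma : Prop := ∀ n : ℕ, ThreeRowFor (Fin n)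

/-- Transition matrix of the lazy 2 x 2 heat-bath chain: with probability 1/2 do nothing; otherwise
choose two distinct rows and two distinct columns uniformly at random and replace the 2 x 2 block
by a uniformly random block with the same row and column sums. -/
def heatBath {m n : ℕ} (r : Fin m → ℕ) (c : Fin n → ℕ) : Matrix (Omega r c) (Omega r c) ℝ :=
  fun X Y => 1 / 2 * (if X = Y then 1 else 0) +
    1 / 2 * (1 / ((m : ℝ) * ((m : ℝ) - 1) * (n : ℝ) * ((n : ℝ) - 1)) *
      ∑ u : Fin m, ∑ v : Fin m, ∑ a : Fin n, ∑ b : Fin n,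
        if u ≠ v ∧ a ≠ b then
          (if keyBlock u v a b Y = keyBlock u v a b X then
            1 / ((cls (keyBlock (r := r) (c := c) u v a b) X).card : ℝ) else 0)
        else 0)

end

end Vale.Agent.P328
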