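import Vale.Agent.P328.Conn
import Vale.Agent.P328.Comm
import Vale.Agent.P335.AvgRect

/-! # P328: three rows.  The fibres of `key3 t` are sets of 3-row tables; the three-row lemma gives the adjacent-pairs inequality.
Template for everything in this file: `Vale/Agent/P335/Adj.lean` (fibre_ineq, sum_cls_eq_sum_subtype, triple_ineq, adj_ineq). -/

namespace Vale.Agent.P328

open Finset

open Vale.Agent.P335 (avg cls ip avgL)

open scoped Classical

noncomputable section

variable {ι κ : Type} [Fintype ι] [Fintype κ] [DecidableEq ι] [DecidableEq κ] {r : ι → ℕ} {c : κ → ℕ}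

/-- the table with the three rows `t 0`, `t 1`, `t 2` erased -/
def key3 (t : Fin 3 → ι) (X : Omega r c) : ι → κ → ℕ :=
  fun i j => if ∃ k, i = t k then 0 else X.1 i j

/-- `D_3 = sum_k (1 - Pi_k)` on 3-row tables -/
def D3 {r3 : Fin 3 → ℕ} (g : Omega r3 c → ℝ) : Omega r3 c → ℝ :=
  fun X => ∑ k : Fin 3, (g X - avg (fun Y : Omega r3 c => Y.1 k) g X)

/-- (T1) for mean zero `g` the three-row lemma reads `ip g g ≤ ip g (D3 g)`
(`ip g (D3 g) = 3 ip g g - sum_k ip g (avg .. g)`; unfold `ip`, `D3`, `Finset.sum_comm`, `sq`). -/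
theorem three_row_form (H : ThreeRowFor κ) {r3 : Fin 3 → ℕ} (g : Omega r3 c → ℝ)
    (hg : ∑ X, g X = 0) : ip g g ≤ ip g (D3 g) := by
  have h := H r3 c g hg
  have e : ip g (D3 g) = 3 * ∑ X, g X ^ 2
      - ∑ k : Fin 3, ∑ X, g X * avg (fun Y : Omega r3 c => Y.1 k) g X := by
    unfold ip D3
    rw [Finset.sum_comm, Finset.mul_sum, ← Finset.sum_sub_distrib]
    refine Finset.sum_congr rfl fun X _ => ?_
    simp only [Fin.sum_univ_three]
    ring
  have e2 : ip g g = ∑ X, g X ^ 2 := by
    unfold ip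
    exact Finset.sum_congr rfl fun X _ => by ring
  rw [e, e2]
  linarith

/-- (T2) `D3` is linear and symmetric: it is `∑ k, (LinearMap.id - avgL (row k))`. -/
theorem exists_D3L {r3 : Fin 3 → ℕ} : ∃ A : (Omega r3 c → ℝ) →ₗ[ℝ] (Omega r3 c → ℝ),
    (∀ g, A g = D3 g) ∧ (∀ f g, ip (A f) g = ip f (A g)) ∧ (∀ a : ℝ, A (fun _ => a) = 0) := by
  have hA : ∀ g, (∑ k : Fin 3, (LinearMap.id - avgL (fun Y : Omega r3 c => Y.1 k)) :
      (Omega r3 c → ℝ) →ₗ[ℝ] (Omega r3 c → ℝ)) g = D3 g := by
    intro g
    funext X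
    simp only [LinearMap.sum_apply, Finset.sum_apply, D3]
    rfl
  refine ⟨∑ k : Fin 3, (LinearMap.id - avgL (fun Y : Omega r3 c => Y.1 k)), hA, ?_, ?_⟩
  · intro f g
    simp only [LinearMap.sum_apply]
    rw [Vale.Agent.P335.ip_sum_left, Vale.Agent.P335.ip_sum_right]
    refine Finset.sum_congr rfl fun k _ => ?_
    simp only [LinearMap.sub_apply, LinearMap.id_apply, Vale.Agent.P335.avgL_apply]
    rw [Vale.Agent.P335.ip_sub_left, Vale.Agent.P335.ip_sub_right, Vale.Agent.P335.ip_avg_left]
  · intro a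
    rw [hA]
    funext X
    simp only [D3]
    have : ∀ k : Fin 3, avg (fun Y : Omega r3 c => Y.1 k) (fun _ => a) = fun _ => a :=
      fun k => Vale.Agent.P335.avg_of_invariant (fun _ _ _ => rfl)
    simp [this]

/-- (T3) for ALL `g`: `ip g (D3 g) ≤ ip (D3 g) (D3 g)`.  Let `a` = mean of `g` (0 if there is no table), `g0 = g - a`.
`D3 g = D3 g0` and `ip g (D3 g) = ip g0 (D3 g0)` (linearity, symmetry, `D3 const = 0`: `exists_D3L`);
`Vale.Agent.P335.sq_ge_of_form_ge` with `three_row_form`. -/
theorem three_row_sq (H : ThreeRowFor κ) {r3 : Fin 3 → ℕ} (g : Omega r3 c → ℝ) :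
    ip g (D3 g) ≤ ip (D3 g) (D3 g) := by
  obtain ⟨A, hA, hsymm, hconst⟩ := exists_D3L (r3 := r3) (c := c)
  obtain ⟨a, ha⟩ : ∃ a : ℝ, ∑ X, (g X - a) = 0 := by
    rcases Nat.eq_zero_or_pos (Fintype.card (Omega r3 c)) with h0 | h0
    · refine ⟨0, ?_⟩
      have : IsEmpty (Omega r3 c) := Fintype.card_eq_zero_iff.1 h0
      simp
    · refine ⟨(∑ X, g X) / (Fintype.card (Omega r3 c) : ℝ), ?_⟩
      have h1 : (Fintype.card (Omega r3 c) : ℝ) ≠ 0 := by positivity
      rw [Finset.sum_sub_distrib, Finset.sum_const, Finset.card_univ, nsmul_eq_mul]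
      field_simp
      ring
  have hg0 : g = (g - fun _ => a) + fun _ => a := by
    ext X; simp
  have hAg : A g = A (g - fun _ => a) := by
    rw [map_sub, hconst a, sub_zero]
  have h1 : ip g (A g) = ip (g - fun _ => a) (A (g - fun _ => a)) := by
    rw [← hAg]
    have h5 : ip g (A g) = ip ((g - fun _ => a) + fun _ => a) (A g) := by rw [← hg0]
    rw [h5, Vale.Agent.P335.ip_add_left, ← hsymm (fun _ => a) g, hconst a]
    have : ip (0 : Omega r3 c → ℝ) g = 0 := by simp [ip]
    rw [this, add_zero]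
  have h2 := three_row_form H (g - fun _ => a) (by simpa using ha)
  rw [← hA] at h2
  have h3 := Vale.Agent.P335.sq_ge_of_form_ge A hsymm (g - fun _ => a) h2
  rw [← hA g, h1, hAg]
  exact h3

theorem sum_range3 (t : Fin 3 → ι) (ht : Function.Injective t) (F : ι → ℕ) :
    ∑ i, (if ∃ k, i = t k then F i else 0) = ∑ k, F (t k) := by
  rw [← Finset.sum_filter]
  have : (Finset.univ.filter (fun i => ∃ k, i = t k)) = Finset.univ.image t := by
    ext i
    simp only [Finset.mem_filter, Finset.mem_univ, true_and, Finset.mem_image]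
    constructor
    · rintro ⟨k, rfl⟩; exact ⟨k, rfl⟩
    · rintro ⟨k, rfl⟩; exact ⟨k, rfl⟩
  rw [this, Finset.sum_image (fun x _ y _ h => ht h)]

theorem sum_split3 (t : Fin 3 → ι) (ht : Function.Injective t) (F : ι → ℕ) :
    ∑ i, F i = ∑ k, F (t k) + ∑ i, (if ∃ k, i = t k then 0 else F i) := by
  rw [← sum_range3 t ht F, ← Finset.sum_add_distrib]
  refine Finset.sum_congr rfl fun i _ => ?_
  split_ifs <;> simp

/-- the table obtained from `X0` by replacing the three rows -/
def raw3 (t : Fin 3 → ι) (X0 : ι → κ → ℕ) (Z : Fin 3 → κ → ℕ) : ι → κ → ℕ :=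
  fun i j => if h : ∃ k, i = t k then Z h.choose j else X0 i j

theorem raw3_t (t : Fin 3 → ι) (ht : Function.Injective t) (X0 : ι → κ → ℕ) (Z : Fin 3 → κ → ℕ)
    (k : Fin 3) (j : κ) : raw3 t X0 Z (t k) j = Z k j := by
  unfold raw3
  have h : ∃ k', t k = t k' := ⟨k, rfl⟩
  rw [dif_pos h]
  have : h.choose = k := ht h.choose_spec.symm
  rw [this]

theorem raw3_out (t : Fin 3 → ι) (X0 : ι → κ → ℕ) (Z : Fin 3 → κ → ℕ)
    (i : ι) (hi : ¬ ∃ k, i = t k) (j : κ) : raw3 t X0 Z i j = X0 i j := by
  unfold raw3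
  rw [dif_neg hi]

/-- (T4) the fibre of `key3 t` through `X0` is the set of 3-row tables with row sums `r (t k)` and column sums
`∑ k, X0 (t k) j`.  Map: `X ↦ fun k j => X (t k) j`.  Inverse: `Z ↦ fun i j => if h : ∃ k, i = t k then Z h.choose j else X0 i j`
(`t` injective, so `h.choose = k` for `i = t k`).  Column sums: split `∑ i` into the range of `t` and the rest
(`Finset.sum_ite`, or compare with `X0`: the rest agrees with `X0` by the key equation). -/
theorem exists_fib3 (t : Fin 3 → ι) (ht : Function.Injective t) (X0 : Omega r c) :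
    ∃ e : {X : Omega r c // key3 t X = key3 t X0} ≃
        Omega (fun k => r (t k)) (fun j => ∑ k, X0.1 (t k) j),
      ∀ X k j, (e X).1 k j = X.1.1 (t k) j := by
  have hcol : ∀ (X : {X : Omega r c // key3 t X = key3 t X0}) (j : κ),
      ∑ k, X.1.1 (t k) j = ∑ k, X0.1 (t k) j := by
    intro X j
    have h1 := sum_split3 t ht (fun i => X.1.1 i j)
    have h2 := sum_split3 t ht (fun i => X0.1 i j)
    have h3 : ∑ i, (if ∃ k, i = t k then 0 else X.1.1 i j) =
        ∑ i, (if ∃ k, i = t k then 0 else X0.1 i j) :=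
      Finset.sum_congr rfl fun i _ => congrFun (congrFun X.2 i) j
    have h4 := X.1.2.2 j
    have h5 := X0.2.2 j
    omega
  have htab : ∀ Z : Omega (fun k => r (t k)) (fun j => ∑ k, X0.1 (t k) j),
      IsTable r c (raw3 t X0.1 Z.1) := by
    intro Z
    constructor
    · intro i
      by_cases hi : ∃ k, i = t k
      · obtain ⟨k, rfl⟩ := hi
        simp only [raw3_t t ht]
        exact Z.2.1 k
      · simp only [raw3_out t X0.1 Z.1 i hi]
        exact X0.2.1 i
    · intro j
      have h1 := sum_split3 t ht (fun i => raw3 t X0.1 Z.1 i j)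
      have h2 := sum_split3 t ht (fun i => X0.1 i j)
      have h3 : ∑ i, (if ∃ k, i = t k then 0 else raw3 t X0.1 Z.1 i j) =
          ∑ i, (if ∃ k, i = t k then 0 else X0.1 i j) := by
        refine Finset.sum_congr rfl fun i _ => ?_
        by_cases hi : ∃ k, i = t k
        · rw [if_pos hi, if_pos hi]
        · rw [if_neg hi, if_neg hi, raw3_out t X0.1 Z.1 i hi]
      have h4 : ∑ k, raw3 t X0.1 Z.1 (t k) j = ∑ k, X0.1 (t k) j := by
        simp only [raw3_t t ht]
        exact Z.2.2 j
      have h5 := X0.2.2 j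
      omega
  have hkey : ∀ Z : Omega (fun k => r (t k)) (fun j => ∑ k, X0.1 (t k) j),
      key3 t (⟨raw3 t X0.1 Z.1, htab Z⟩ : Omega r c) = key3 t X0 := by
    intro Z
    funext i j
    unfold key3
    by_cases hi : ∃ k, i = t k
    · rw [if_pos hi, if_pos hi]
    · rw [if_neg hi, if_neg hi]
      exact raw3_out t X0.1 Z.1 i hi j
  refine ⟨{ toFun := fun X => ⟨fun k j => X.1.1 (t k) j, fun k => X.1.2.1 (t k), fun j => hcol X j⟩
            invFun := fun Z => ⟨⟨raw3 t X0.1 Z.1, htab Z⟩, hkey Z⟩
            left_inv := ?_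
            right_inv := ?_ }, fun X k j => rfl⟩
  · intro X
    apply Subtype.ext
    apply Subtype.ext
    funext i j
    by_cases hi : ∃ k, i = t k
    · obtain ⟨k, rfl⟩ := hi
      exact raw3_t t ht X0.1 _ k j
    · have h1 : raw3 t X0.1 (fun k j => X.1.1 (t k) j) i j = X0.1 i j := raw3_out t X0.1 _ i hi j
      have h2 := congrFun (congrFun X.2 i) j
      unfold key3 at h2
      rw [if_neg hi, if_neg hi] at h2
      exact h1.trans h2.symm
  · intro Z
    apply Subtype.ext
    funext k j
    exact raw3_t t ht X0.1 Z.1 k j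

theorem fin3_cases : ∀ (k k' k'' l : Fin 3), k ≠ k' → k ≠ k'' → k' ≠ k'' →
    l = k ∨ l = k' ∨ l = k'' := by
  decide

/-- (T5) inside a fibre of `key3 t`, erasing two of the three rows leaves exactly the third one. -/
theorem keyRows_iff_row (t : Fin 3 → ι) (ht : Function.Injective t) (X0 : Omega r c)
    (k k' k'' : Fin 3) (h1 : k ≠ k') (h2 : k ≠ k'') (h3 : k' ≠ k'')
    (x y : {X : Omega r c // key3 t X = key3 t X0}) :
    keyRows (t k') (t k'') x.1 = keyRows (t k') (t k'') y.1 ↔ x.1.1 (t k) = y.1.1 (t k) := by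
  constructor
  · intro h
    funext j
    have := congrFun (congrFun h (t k)) j
    unfold keyRows at this
    have hn : ¬ (t k = t k' ∨ t k = t k'') := by
      rintro (h' | h')
      · exact h1 (ht h')
      · exact h2 (ht h')
    rw [if_neg hn, if_neg hn] at this
    exact this
  · intro h
    funext i j
    unfold keyRows
    by_cases hi : i = t k' ∨ i = t k''
    · rw [if_pos hi, if_pos hi]
    · rw [if_neg hi, if_neg hi]
      by_cases hik : i = t k
      · rw [hik]
        exact congrFun h j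
      · have hn : ¬ ∃ l, i = t l := by
          rintro ⟨l, hl⟩
          have hl3 : l = k ∨ l = k' ∨ l = k'' := fin3_cases k k' k'' l h1 h2 h3
          rcases hl3 with rfl | rfl | rfl
          · exact hik hl
          · exact hi (Or.inl hl)
          · exact hi (Or.inr hl)
        have hx := congrFun (congrFun x.2 i) j
        have hy := congrFun (congrFun y.2 i) j
        unfold key3 at hx hy
        rw [if_neg hn, if_neg hn] at hx hy
        exact hx.trans hy.symm

/-- (T5) equal `keyRows (t k') (t k'')` gives equal `key3 t`. -/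
theorem key3_eq_of_keyRows_eq (t : Fin 3 → ι) (k' k'' : Fin 3) {X Y : Omega r c}
    (h : keyRows (t k') (t k'') X = keyRows (t k') (t k'') Y) : key3 t X = key3 t Y := by
  funext i j
  unfold key3
  by_cases hi : ∃ l, i = t l
  · rw [if_pos hi, if_pos hi]
  · rw [if_neg hi, if_neg hi]
    have := congrFun (congrFun h i) j
    unfold keyRows at this
    have hn : ¬ (i = t k' ∨ i = t k'') := by
      rintro (h' | h')
      · exact hi ⟨k', h'⟩
      · exact hi ⟨k'', h'⟩
    rw [if_neg hn, if_neg hn] at this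
    exact this

/-- `D_T` -/
def DT (t : Fin 3 → ι) (f : Omega r c → ℝ) : Omega r c → ℝ := fun X =>
  (f X - avg (keyRows (t 1) (t 2)) f X) + (f X - avg (keyRows (t 0) (t 2)) f X) +
    (f X - avg (keyRows (t 0) (t 1)) f X)

/-- (T6) the inequality on one fibre (copy of fibre_ineq in P335/Adj.lean).  With `e` from `exists_fib3` and
`g = fun Z => f (e.symm Z).1`: `avg (keyRows (t k') (t k'')) f x.1 = avg (fun Y => Y.1 k) g (e x)` by
`Vale.Agent.P335.avg_transport` (hypotheses from `key3_eq_of_keyRows_eq`, `keyRows_iff_row` and the formula for `e`, `funext`),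
so `DT t f x.1 = D3 g (e x)` (`Fin.sum_univ_three`); `Equiv.sum_comp e`; `three_row_sq`. -/
theorem fibre3_ineq (H : ThreeRowFor κ) (t : Fin 3 → ι) (ht : Function.Injective t) (X0 : Omega r c)
    (f : Omega r c → ℝ) :
    ∑ x : {X : Omega r c // key3 t X = key3 t X0}, f x.1 * DT t f x.1 ≤
      ∑ x : {X : Omega r c // key3 t X = key3 t X0}, DT t f x.1 * DT t f x.1 := by
  obtain ⟨e, he⟩ := exists_fib3 t ht X0
  set g : Omega (fun k => r (t k)) (fun j => ∑ k, X0.1 (t k) j) → ℝ :=
    fun Z => f (e.symm Z).1 with hg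
  have tr : ∀ (k k' k'' : Fin 3), k ≠ k' → k ≠ k'' → k' ≠ k'' →
      ∀ x : {X : Omega r c // key3 t X = key3 t X0},
      avg (keyRows (t k') (t k'')) f x.1 =
        avg (fun Y : Omega (fun k => r (t k)) (fun j => ∑ k, X0.1 (t k) j) => Y.1 k) g (e x) := by
    intro k k' k'' h1 h2 h3 x
    refine Vale.Agent.P335.avg_transport (keyRows (t k') (t k''))
      (fun Y : Omega (fun k => r (t k)) (fun j => ∑ k, X0.1 (t k) j) => Y.1 k)
      (fun X => key3 t X = key3 t X0) ?_ e ?_ f x
    · intro X Y hk
      rw [key3_eq_of_keyRows_eq t k' k'' hk]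
    · intro x y
      rw [keyRows_iff_row t ht X0 k k' k'' h1 h2 h3 x y]
      constructor
      · intro h
        funext j
        rw [he, he, h]
      · intro h
        funext j
        have := congrFun h j
        rw [he, he] at this
        exact this
  have hf : ∀ x : {X : Omega r c // key3 t X = key3 t X0}, f x.1 = g (e x) := by
    intro x
    simp [hg]
  have hD : ∀ x : {X : Omega r c // key3 t X = key3 t X0}, DT t f x.1 = D3 g (e x) := by
    intro x
    unfold DT D3
    rw [Fin.sum_univ_three, tr 0 1 2 (by decide) (by decide) (by decide) x,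
      tr 1 0 2 (by decide) (by decide) (by decide) x,
      tr 2 0 1 (by decide) (by decide) (by decide) x, hf]
  have key := three_row_sq H g
  unfold ip at key
  simp_rw [hD, hf]
  rw [Equiv.sum_comp e (fun Z => g Z * D3 g Z), Equiv.sum_comp e (fun Z => D3 g Z * D3 g Z)]
  exact key

/-- a sum over a class as a sum over a subtype -/
theorem sum_cls_eq_sum_subtype3 {X : Type*} [Fintype X] {K : Type*} (k : X → K) (x0 : X)
    (F : X → ℝ) (C : X → Prop) (hC : ∀ x, C x ↔ k x = k x0) :
    ∑ x ∈ cls k x0, F x = ∑ x : {x // C x}, F x.1 := by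
  have h1 : cls k x0 = univ.filter C := by
    ext x
    simp [Vale.Agent.P335.mem_cls, hC]
  rw [h1]
  exact (Finset.sum_subtype_eq_sum_filter (s := univ) (p := C) (f := F)).symm.trans (by simp)

/-- (T7) copy of triple_ineq in P335/Adj.lean: `F = DT * DT - f * DT` has nonnegative sum over every class of `key3 t`
(`fibre3_ineq`; copy the generic lemma sum_cls_eq_sum_subtype from P335/Adj.lean into this file), and
`∑ F = ∑ avg (key3 t) F` (`Vale.Agent.P335.sum_avg`). -/
theorem triple_ineq (H : ThreeRowFor κ) (t : Fin 3 → ι) (ht : Function.Injective t)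
    (f : Omega r c → ℝ) : ip f (DT t f) ≤ ip (DT t f) (DT t f) := by
  set F : Omega r c → ℝ := fun G => DT t f G * DT t f G - f G * DT t f G with hF
  have hfib : ∀ G0 : Omega r c, 0 ≤ ∑ G ∈ cls (key3 t) G0, F G := by
    intro G0
    have h := fibre3_ineq H t ht G0 f
    rw [sum_cls_eq_sum_subtype3 (key3 t) G0 F (fun G => key3 t G = key3 t G0)
      (fun G => Iff.rfl), hF]
    simp only [sum_sub_distrib]
    have e : ∀ (i1 i2 : Fintype {X : Omega r c // key3 t X = key3 t G0})
        (Q : {X : Omega r c // key3 t X = key3 t G0} → ℝ),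
        @Finset.sum _ _ _ (@Finset.univ _ i1) Q = @Finset.sum _ _ _ (@Finset.univ _ i2) Q := by
      intro i1 i2 Q
      rw [Subsingleton.elim i1 i2]
    rw [sub_nonneg]
    refine le_trans (le_of_eq (e _ _ _)) (le_trans h (le_of_eq (e _ _ _)))
  have hsum : 0 ≤ ∑ G, F G := by
    rw [← Vale.Agent.P335.sum_avg (key3 t) F]
    refine sum_nonneg (fun G0 _ => ?_)
    unfold avg
    exact div_nonneg (hfib G0) (Nat.cast_nonneg _)
  rw [hF, sum_sub_distrib] at hsum
  unfold ip
  linarith

/-- (T8) copy of adj_ineq in P335/Adj.lean: `t = ![a, b, d]` is injective; `DT t f = RR b d + RR a d + RR a b`; expand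
`ip (DT) (DT)` bilinearly, use `ip_RR_self`, `Vale.Agent.P335.ip_comm`. -/
theorem rows_adj (H : ThreeRowFor κ) (a b d : ι) (hab : a ≠ b) (had : a ≠ d) (hbd : b ≠ d)
    (f : Omega r c → ℝ) :
    0 ≤ ip (RR (fun u v => keyRows (r := r) (c := c) u v) a b f)
          (RR (fun u v => keyRows (r := r) (c := c) u v) a d f) +
        ip (RR (fun u v => keyRows (r := r) (c := c) u v) a b f)
          (RR (fun u v => keyRows (r := r) (c := c) u v) b d f) +
        ip (RR (fun u v => keyRows (r := r) (c := c) u v) a d f)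
          (RR (fun u v => keyRows (r := r) (c := c) u v) b d f) := by
  have ht : Function.Injective ![a, b, d] := by
    intro i j hij
    fin_cases i <;> fin_cases j <;> simp_all [eq_comm]
  have h := triple_ineq H ![a, b, d] ht f
  set R1 := RR (fun u v => keyRows (r := r) (c := c) u v) a b f with hR1
  set R2 := RR (fun u v => keyRows (r := r) (c := c) u v) a d f with hR2
  set R3 := RR (fun u v => keyRows (r := r) (c := c) u v) b d f with hR3
  have hDT : DT ![a, b, d] f = R3 + R2 + R1 := rfl
  rw [hDT] at h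
  simp only [Vale.Agent.P335.ip_add_left, Vale.Agent.P335.ip_add_right] at h
  have e1 : ip R1 R1 = ip f R1 := ip_RR_self _ a b f
  have e2 : ip R2 R2 = ip f R2 := ip_RR_self _ a d f
  have e3 : ip R3 R3 = ip f R3 := ip_RR_self _ b d f
  rw [e1, e2, e3, Vale.Agent.P335.ip_comm R2 R1, Vale.Agent.P335.ip_comm R3 R1,
    Vale.Agent.P335.ip_comm R3 R2] at h
  linarith

/-- **Row recursion**: the three-row lemma for the column type `κ` gives `sum over pairs of rows of (1 - Q_b) >= 1 - E`
for tables with ANY number of rows (ordered pairs, hence the factor 2). -/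
theorem rowGap (H : ThreeRowFor κ) (f : Omega r c → ℝ) :
    2 * ip f (f - avg (fun _ : Omega r c => ()) f) ≤
      ip f (DD (fun u v => keyRows (r := r) (c := c) u v) f) :=
  DD_gap_var _ (fun u v => keyRows_comm u v)
    (fun a b d hab had hbd f => rows_adj H a b d hab had hbd f)
    (fun u v w x h f => rows_disj u v w x h f)
    (fun f h X Y => const_of_rows_invariant f h X Y) f

end

end Vale.Agent.P328
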